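import Crest.Agent.S0112Lib.Greedy

/-!
Assembling: the scaled greedy sum, the truncation and the smearing give the main step.
-/

set_option autoImplicit false

open Filter MeasureTheory Topology
open scoped InnerProductSpace ComplexConjugate

namespace Crest.Agent.S0112Lib

open Crest.OpAlg

variable {H : Type*} [NormedAddCommGroup H] [InnerProductSpace ℂ H] [CompleteSpace H]

section scaled

variable {S : ModularDatum H} (T : H →L[ℂ] H) (f : BCF) (herg : S.Ergodic) {ω : Ultrafilter ℕ}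
  (hω : (ω : Filter ℕ) ≤ atTop)

include herg hω

theorem exists_sum {a : H →L[ℂ] H} (ha : a ∈ S.M) {lam : ℝ} (hlam : 0 ≤ lam) {ε : ℝ} (hε : 0 < ε)
    {N : ℕ} (hN : 0 < N) :
    ∃ V : H →L[ℂ] H, V ∈ S.M ∧ qA S T f V - lam * qB S V ≥
      (cm ω fun t => ((hit S T f (a S.vac) t : ℝ) : ℂ)).re - ε
        - lam * (qB S a / N + qP S a ^ 2 + 2 * qP S a * qQ S a) := by
  have hN' : (0 : ℝ) < N := by exact_mod_cast hN
  set ρ : ℝ := (Real.sqrt N)⁻¹ with hρ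
  have hρ0 : 0 < ρ := by rw [hρ]; positivity
  have hρ2 : ρ ^ 2 = (N : ℝ)⁻¹ := by
    rw [hρ, inv_pow, Real.sq_sqrt hN'.le]
  set b : H →L[ℂ] H := ((ρ : ℝ) : ℂ) • a with hb
  have hbM : b ∈ S.M := smul_mem' S.M _ ha
  have normb : ‖((ρ : ℝ) : ℂ)‖ = ρ := by
    rw [Complex.norm_real, Real.norm_eq_abs, abs_of_pos hρ0]
  have hP : qP S b = ρ ^ 2 * qP S a := by
    unfold qP
    rw [hb, ContinuousLinearMap.smul_apply, norm_smul, normb, mul_pow]
  have hQ : qQ S b = ρ ^ 2 * qQ S a := by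
    unfold qQ
    rw [hb, star_smul, ContinuousLinearMap.smul_apply, norm_smul]
    simp only [Complex.star_def, Complex.conj_ofReal, normb, mul_pow]
  have hB : qB S b = ρ ^ 4 * qB S a := by
    unfold qB
    rw [hb, star_smul, ContinuousLinearMap.smul_apply, ContinuousLinearMap.smul_apply, map_smul,
      norm_smul, norm_smul]
    simp only [Complex.star_def, Complex.conj_ofReal, normb, mul_pow]
    ring
  have hhit : ∀ t, ((hit S T f (b S.vac) t : ℝ) : ℂ) =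
      ((ρ ^ 2 : ℝ) : ℂ) * ((hit S T f (a S.vac) t : ℝ) : ℂ) := by
    intro t
    unfold hit
    rw [hb, ContinuousLinearMap.smul_apply, map_smul, map_smul, map_smul, norm_smul, normb,
      mul_pow, Complex.ofReal_mul]
  have hg : (cm ω fun t => ((hit S T f (b S.vac) t : ℝ) : ℂ)).re =
      ρ ^ 2 * (cm ω fun t => ((hit S T f (a S.vac) t : ℝ) : ℂ)).re := by
    simp_rw [hhit]
    rw [cm_const_mul ω (good_hit S T f (a S.vac)), Complex.re_ofReal_mul]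
  have hε' : 0 < ε / N := by positivity
  obtain ⟨V, hV, hVb⟩ := greedy_sum T f herg hω hbM hlam hε' N 0 (zero_mem _)
  refine ⟨V, hV, ?_⟩
  have h0 : obj S T f lam ((N : ℝ) * (2 * qP S b + 2 * qQ S b)) ((N : ℝ) * (2 * qP S b))
      (gC (qP S b) (qQ S b) (qB S b) N) 0 = - lam * gC (qP S b) (qQ S b) (qB S b) N := by
    unfold obj qA qB qP qQ
    simp
  rw [h0] at hVb
  have hp0 : 0 ≤ qP S b := by unfold qP; positivity
  have hq0 : 0 ≤ qQ S b := by unfold qQ; positivity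
  have hgC := gC_le (r := qB S b) hp0 hq0 N
  have hgC2 : gC (qP S b) (qQ S b) (qB S b) N ≤ qB S a / N + qP S a ^ 2 + 2 * qP S a * qQ S a := by
    refine hgC.trans (le_of_eq ?_)
    rw [hP, hQ, hB]
    have h4 : ρ ^ 4 = (N : ℝ)⁻¹ ^ 2 := by rw [← hρ2]; ring
    have e : (ρ ^ 2 * qP S a) ^ 2 + 2 * (ρ ^ 2 * qP S a) * (ρ ^ 2 * qQ S a) =
        ρ ^ 4 * (qP S a ^ 2 + 2 * qP S a * qQ S a) := by ring
    rw [e, h4]
    field_simp
    ring
  have hmain : (N : ℝ) * ((cm ω fun t => ((hit S T f (b S.vac) t : ℝ) : ℂ)).re - ε / N) =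
      (cm ω fun t => ((hit S T f (a S.vac) t : ℝ) : ℂ)).re - ε := by
    rw [hg, hρ2]
    field_simp
  rw [hmain] at hVb
  have := mul_le_mul_of_nonneg_left hgC2 hlam
  nlinarith [hVb, this]

end scaled

theorem sq_sub_le_aux {x y t ε c : ℝ} (hx0 : 0 ≤ x) (hy0 : 0 ≤ y) (hxb : x ≤ t) (hyb : y ≤ 2 * t)
    (hxy : x - y ≤ t * ε) (ht : 0 ≤ t) (hε : 0 ≤ ε) (hε₂ : ε * (3 * t ^ 2) ≤ c) (hc : 0 ≤ c) :
    x ^ 2 - y ^ 2 ≤ c := by
  by_cases hcase : x ≤ y
  · have : x ^ 2 ≤ y ^ 2 := pow_le_pow_left₀ hx0 hcase 2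
    linarith
  · push Not at hcase
    have h1 : x ^ 2 - y ^ 2 = (x - y) * (x + y) := by ring
    have h2 : (x - y) * (x + y) ≤ (t * ε) * (3 * t) :=
      mul_le_mul hxy (by linarith) (by linarith) (by positivity)
    have h3 : (t * ε) * (3 * t) = ε * (3 * t ^ 2) := by ring
    linarith

theorem eps_aux {ε t c : ℝ} (hc : 0 < c) (hε : ε ≤ c / (6 * (t ^ 2 + 1))) :
    ε * (3 * t ^ 2) ≤ c / 2 := by
  have hT : 0 ≤ t ^ 2 := by positivity
  calc ε * (3 * t ^ 2) ≤ c / (6 * (t ^ 2 + 1)) * (3 * t ^ 2) := by gcongr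
    _ ≤ c / 2 := by
      rw [div_mul_eq_mul_div, div_le_iff₀ (by positivity)]
      nlinarith [hc, hT]

theorem good_norm_T_wave (D : LineCalculus H) (T : H →L[ℂ] H) (h : H) :
    Good fun t : ℝ => ((‖T (D.wave t h)‖ ^ 2 : ℝ) : ℂ) := by
  refine ⟨Complex.continuous_ofReal.comp ((T.continuous.comp (continuous_wave D h)).norm.pow 2),
    (‖T‖ * ‖h‖) ^ 2, fun t => ?_⟩
  rw [Complex.norm_real, Real.norm_eq_abs, abs_of_nonneg (by positivity)]
  refine pow_le_pow_left₀ (norm_nonneg _) ?_ 2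
  refine (T.le_opNorm _).trans ?_
  rw [norm_wave]

/-- perturbing the vector does not lose too much of the mean -/
theorem gain_ge {D : LineCalculus H} {ω : Ultrafilter ℕ} (hω : (ω : Filter ℕ) ≤ atTop)
    (T : H →L[ℂ] H) {c : ℝ} (hc : 0 < c) (h h' : H) {ε₀ : ℝ} (hh : ‖h‖ = 1)
    (hmean : c ≤ ultraMean ω (fun t : ℝ => ‖T (D.wave t h)‖ ^ 2))
    (hdiff : ‖h' - h‖ ≤ ε₀) (hε₀1 : ε₀ ≤ 1) (hε₁ : ε₀ ≤ c / (6 * (‖T‖ ^ 2 + 1))) :
    c / 2 ≤ (cm ω fun t => ((‖T (D.wave t h')‖ ^ 2 : ℝ) : ℂ)).re := by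
  have hgood_h := good_norm_T_wave D T h
  have hgood_h' := good_norm_T_wave D T h'
  have hmean' := hmean
  rw [ultraMean_eq hω hgood_h] at hmean'
  have hε0 : 0 ≤ ε₀ := (norm_nonneg _).trans hdiff
  have hnormh' : ‖h'‖ ≤ 2 := by
    have : h' = (h' - h) + h := by abel
    rw [this]
    refine (norm_add_le _ _).trans ?_
    rw [hh]
    linarith
  have hpt : ∀ t, ‖T (D.wave t h)‖ ^ 2 - ‖T (D.wave t h')‖ ^ 2 ≤ c / 2 := by
    intro t
    refine sq_sub_le_aux (norm_nonneg _) (norm_nonneg _) ?_ ?_ ?_ (norm_nonneg T) hε0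
      (eps_aux hc hε₁) (by positivity)
    · refine (T.le_opNorm _).trans ?_
      rw [norm_wave, hh, mul_one]
    · refine (T.le_opNorm _).trans ?_
      rw [norm_wave, mul_comm]
      exact mul_le_mul_of_nonneg_right hnormh' (norm_nonneg _)
    · refine (norm_sub_norm_le _ _).trans ?_
      rw [← map_sub, ← map_sub]
      refine (T.le_opNorm _).trans ?_
      rw [norm_wave, norm_sub_rev]
      exact mul_le_mul_of_nonneg_left hdiff (norm_nonneg _)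
  have hF := hgood_h.add (hgood_h'.const_mul ((-1 : ℝ) : ℂ))
  have h5 := cm_re_le hω hF (C := c / 2) (fun t => by
    simp only [Complex.add_re, Complex.re_ofReal_mul, Complex.ofReal_re]
    have := hpt t
    linarith)
  rw [cm_add ω hgood_h (hgood_h'.const_mul _), cm_const_mul ω hgood_h'] at h5
  simp only [Complex.add_re, Complex.re_ofReal_mul] at h5
  linarith

theorem real_aux {A β τ lam c₀ : ℝ} (hlam : 0 < lam) (hβ : 0 ≤ β) (hc₀ : 0 < c₀)
    (hmain : c₀ ≤ A - lam * β ^ 2) (hA : A ≤ τ * β) : β ≤ τ / lam ∧ c₀ ≤ A := by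
  constructor
  · rw [le_div_iff₀ hlam]
    by_contra hcon
    push Not at hcon
    have h0 : β * (τ - β * lam) ≤ 0 := mul_nonpos_of_nonneg_of_nonpos hβ (by linarith)
    have h1 : τ * β - lam * β ^ 2 = β * (τ - β * lam) := by ring
    linarith
  · have : 0 ≤ lam * β ^ 2 := by positivity
    linarith

/-- From the approximant to a good greedy sum. -/
theorem exists_good_V {S : ModularDatum H} (herg : S.Ergodic) {ω : Ultrafilter ℕ}
    (hω : (ω : Filter ℕ) ≤ atTop) (T : H →L[ℂ] H) (f : BCF) (hfn : ‖f‖ ≤ 1)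
    {a : H →L[ℂ] H} (haM : a ∈ S.M) {A₂ c' : ℝ} (hc' : 0 < c') (hA₂ : 0 ≤ A₂)
    (hnorm_aξ : ‖a S.vac‖ ≤ 2) (hnorm_a'ξ : ‖star a S.vac‖ ≤ A₂)
    (hgain : c' ≤ (cm ω fun t => ((hit S T f (a S.vac) t : ℝ) : ℂ)).re) :
    ∃ V : H →L[ℂ] H, V ∈ S.M ∧
      ‖star V (V S.vac)‖ ≤ ‖T‖ ^ 2 / (c' / (4 * (1 + 2 ^ 4 + 2 * 2 ^ 2 * A₂ ^ 2))) ∧
      Real.sqrt (c' / 2) ≤ ‖T (S.D.apply f (V S.vac))‖ := by
  set Γ : ℝ := 1 + 2 ^ 4 + 2 * 2 ^ 2 * A₂ ^ 2 with hΓ
  have hΓ0 : 0 < Γ := by positivity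
  set lam : ℝ := c' / (4 * Γ) with hlam
  have hlam0 : 0 < lam := by positivity
  obtain ⟨N, hN⟩ := exists_nat_gt (qB S a + 1)
  have hqB0 : 0 ≤ qB S a := by unfold qB; positivity
  have hN0 : 0 < N := by
    have : (0 : ℝ) < N := by linarith
    exact_mod_cast this
  have hN0' : (0 : ℝ) < N := by exact_mod_cast hN0
  obtain ⟨V, hVM, hV⟩ := exists_sum T f herg hω haM hlam0.le (ε := c' / 4) (by positivity) hN0
  have hqB : qB S a / N ≤ 1 := by
    rw [div_le_one hN0']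
    linarith
  have hqP : qP S a ≤ 2 ^ 2 := by
    unfold qP
    exact pow_le_pow_left₀ (norm_nonneg _) hnorm_aξ 2
  have hqQ : qQ S a ≤ A₂ ^ 2 := by
    unfold qQ
    exact pow_le_pow_left₀ (norm_nonneg _) hnorm_a'ξ 2
  have hqP0 : 0 ≤ qP S a := by unfold qP; positivity
  have hqQ0 : 0 ≤ qQ S a := by unfold qQ; positivity
  have hΓbound : qB S a / N + qP S a ^ 2 + 2 * qP S a * qQ S a ≤ Γ := by
    have h1 : qP S a ^ 2 ≤ (2 ^ 2) ^ 2 := pow_le_pow_left₀ hqP0 hqP 2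
    have h2 : qP S a * qQ S a ≤ 2 ^ 2 * A₂ ^ 2 := mul_le_mul hqP hqQ hqQ0 (by positivity)
    rw [hΓ]
    linarith
  have hlamΓ : lam * Γ = c' / 4 := by
    rw [hlam]
    field_simp
  have hmain : c' / 2 ≤ qA S T f V - lam * qB S V := by
    have h1 : lam * (qB S a / N + qP S a ^ 2 + 2 * qP S a * qQ S a) ≤ c' / 4 := by
      rw [← hlamΓ]
      exact mul_le_mul_of_nonneg_left hΓbound hlam0.le
    linarith
  set β' := ‖star V (V S.vac)‖ with hβ'
  have hβ0 : 0 ≤ β' := norm_nonneg _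
  have hqBV : qB S V = β' ^ 2 := rfl
  have hVξ : ‖V S.vac‖ ^ 2 ≤ β' := by
    have h1 := norm_sq_star_apply V S.vac
    rw [h1]
    refine (Complex.re_le_norm _).trans ?_
    refine (norm_inner_le_norm _ _).trans ?_
    rw [S.norm_vac, one_mul]
    exact le_rfl
  have hAV : qA S T f V ≤ ‖T‖ ^ 2 * β' := by
    unfold qA
    have h1 : ‖T (S.D.apply f (V S.vac))‖ ≤ ‖T‖ * ‖V S.vac‖ := by
      refine (T.le_opNorm _).trans ?_
      refine mul_le_mul_of_nonneg_left ?_ (norm_nonneg _)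
      refine (apply_norm_apply_le S.D f _).trans ?_
      calc ‖f‖ * ‖V S.vac‖ ≤ 1 * ‖V S.vac‖ := by gcongr
        _ = _ := one_mul _
    calc _ ≤ (‖T‖ * ‖V S.vac‖) ^ 2 := pow_le_pow_left₀ (norm_nonneg _) h1 2
      _ = ‖T‖ ^ 2 * ‖V S.vac‖ ^ 2 := by ring
      _ ≤ ‖T‖ ^ 2 * β' := by gcongr
  rw [hqBV] at hmain
  obtain ⟨h1, h2⟩ := real_aux hlam0 hβ0 (by positivity) hmain hAV
  refine ⟨V, hVM, h1, ?_⟩
  refine Real.sqrt_le_iff.2 ⟨norm_nonneg _, ?_⟩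
  exact h2

/-- From a good greedy sum to the final band-limited bounded element. -/
theorem exists_final {S : ModularDatum H} (T : H →L[ℂ] H) {f : BCF} (hfn : ‖f‖ ≤ 1)
    {Φ : ℝ → ℂ} {θ : ℝ} (hKer : Kernel Φ θ f) {κ₀ : ℝ} (hκ₀ : 0 ≤ κ₀) (hΦ : (∫ y, ‖Φ y‖) ≤ κ₀)
    {V : H →L[ℂ] H} (hVM : V ∈ S.M) {β₀ a₀ K : ℝ} (ha₀ : 0 < a₀) (hK : 0 < K)
    (hKb : ‖T‖ * β₀ / a₀ ≤ K) (hβ₀ : 0 ≤ β₀)
    (hβ : ‖star V (V S.vac)‖ ≤ β₀) (hTV : a₀ ≤ ‖T (S.D.apply f (V S.vac))‖) :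
    ∃ v : H →L[ℂ] H, v ∈ S.M ∧ ‖v‖ ≤ κ₀ * (K / 2) ∧ a₀ / 2 ≤ ‖T (v S.vac)‖ ∧
      v S.vac = S.D.apply f ((Classical.choose (exists_trunc S.M hVM hK S.vac)) S.vac) := by
  obtain ⟨hxM, hxn, hxe⟩ := Classical.choose_spec (exists_trunc S.M hVM hK S.vac)
  set x := Classical.choose (exists_trunc S.M hVM hK S.vac) with hx
  have hxe2 : ‖T‖ * ‖V S.vac - x S.vac‖ ≤ a₀ / 2 := by
    have h1 : ‖V S.vac - x S.vac‖ ≤ β₀ / (2 * K) := by
      refine hxe.trans ?_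
      gcongr
    have h2 : ‖T‖ * (β₀ / (2 * K)) ≤ a₀ / 2 := by
      have h3 : ‖T‖ * β₀ ≤ K * a₀ := by
        rw [div_le_iff₀ ha₀] at hKb
        linarith
      rw [← mul_div_assoc, div_le_div_iff₀ (by positivity) (by norm_num)]
      nlinarith
    calc _ ≤ ‖T‖ * (β₀ / (2 * K)) := by gcongr
      _ ≤ _ := h2
  have hTx : a₀ / 2 ≤ ‖T (S.D.apply f (x S.vac))‖ := by
    have e : T (S.D.apply f (V S.vac)) =
        T (S.D.apply f (x S.vac)) + T (S.D.apply f (V S.vac - x S.vac)) := by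
      rw [← map_add, ← map_add]
      congr 2
      abel
    have h1 := norm_add_le (T (S.D.apply f (x S.vac))) (T (S.D.apply f (V S.vac - x S.vac)))
    rw [← e] at h1
    have h2 : ‖T (S.D.apply f (V S.vac - x S.vac))‖ ≤ ‖T‖ * ‖V S.vac - x S.vac‖ := by
      refine (T.le_opNorm _).trans ?_
      refine mul_le_mul_of_nonneg_left ?_ (norm_nonneg _)
      refine (apply_norm_apply_le S.D f _).trans ?_
      calc ‖f‖ * ‖V S.vac - x S.vac‖ ≤ 1 * ‖V S.vac - x S.vac‖ := by gcongr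
        _ = _ := one_mul _
    linarith
  obtain ⟨v, hvM, hvn, hvξ⟩ := exists_smear S hKer hxM
  refine ⟨v, hvM, ?_, ?_, hvξ⟩
  · refine hvn.trans ?_
    exact mul_le_mul hΦ hxn (norm_nonneg _) hκ₀
  · rw [hvξ]
    exact hTx

/-- The main step: the constants do not depend on the width nor on the vector. -/
theorem main_step {S : ModularDatum H} (herg : S.Ergodic) {ω : Ultrafilter ℕ}
    (hω : (ω : Filter ℕ) ≤ atTop) (T : H →L[ℂ] H) (s Δ c : ℝ) (hc : 0 < c) :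
    ∃ C η : ℝ, 0 < η ∧ ∀ (δ : ℝ) (h : H), 0 < δ → δ ≤ Δ → ‖h‖ = 1 →
      S.D.SupportedIn (Set.Icc (s - δ) (s + δ)) h →
      c ≤ ultraMean ω (fun t : ℝ => ‖T (S.D.wave t h)‖ ^ 2) →
      ∃ v : H →L[ℂ] H, v ∈ S.M ∧ ‖v‖ ≤ C ∧ η ≤ ‖T (v S.vac)‖ ∧
        S.D.SupportedIn (Set.Icc (s - 4 * δ) (s + 4 * δ)) (v S.vac) := by
  obtain ⟨κ₀, hκ₀, hbump⟩ := exists_bump_kernel
  -- constants
  set A₂ : ℝ := Real.exp ((s + 2 * Δ) / 2) + 1 with hA₂
  have hA₂0 : 0 < A₂ := by positivity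
  set c' : ℝ := c / 2 with hc'
  have hc'0 : 0 < c' := by positivity
  set β₀ : ℝ := ‖T‖ ^ 2 / (c' / (4 * (1 + 2 ^ 4 + 2 * 2 ^ 2 * A₂ ^ 2))) with hβ₀
  have hβ₀0 : 0 ≤ β₀ := by positivity
  set a₀ : ℝ := Real.sqrt (c' / 2) with ha₀
  have ha₀0 : 0 < a₀ := by rw [ha₀]; positivity
  set K : ℝ := ‖T‖ * β₀ / a₀ + 1 with hK
  have hK0 : 0 < K := by positivity
  set ε₀ : ℝ := min 1 (c / (6 * (‖T‖ ^ 2 + 1))) with hε₀
  have hε₀0 : 0 < ε₀ := by
    rw [hε₀]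
    exact lt_min one_pos (by positivity)
  refine ⟨κ₀ * (K / 2), a₀ / 2, by positivity, ?_⟩
  intro δ h hδ hδΔ hh hband hmean
  obtain ⟨f, Φ, θ, hKer, hΦ, hfc, hf1, hf0, hfn⟩ := hbump s δ hδ
  -- `ψ(f) h = h`
  have hfh : S.D.apply f h = h := by
    have h1 := hband (1 - f) (fun u hu => by
      rw [BoundedContinuousFunction.sub_apply, hf1 u hu]
      simp)
    rw [apply_sub', apply_one', sub_eq_zero] at h1
    exact h1.symm
  -- the approximant
  obtain ⟨a, haM, ha1, ha2⟩ := exists_approx S h f hfc hfh ε₀ hε₀0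
  have hε₀1 : ε₀ ≤ 1 := min_le_left _ _
  have hnorm_aξ : ‖a S.vac‖ ≤ 2 := by
    have : a S.vac = (a S.vac - h) + h := by abel
    rw [this]
    refine (norm_add_le _ _).trans ?_
    rw [hh]
    linarith
  have hnormE : ‖mulE f hfc‖ ≤ Real.exp ((s + 2 * Δ) / 2) := by
    rw [BoundedContinuousFunction.norm_le (Real.exp_pos _).le]
    intro u
    rw [mulE_apply, norm_mul]
    by_cases hu : u ∈ Set.Icc (s - 2 * δ) (s + 2 * δ)
    · have h1 : ‖f u‖ ≤ 1 := (f.norm_coe_le_norm u).trans hfn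
      have h2 : ‖eHalf u‖ ≤ Real.exp ((s + 2 * Δ) / 2) := by
        unfold eHalf
        rw [Complex.norm_real, Real.norm_eq_abs, abs_of_pos (Real.exp_pos _)]
        apply Real.exp_le_exp.2
        have := hu.2
        linarith
      calc _ ≤ 1 * Real.exp ((s + 2 * Δ) / 2) := by gcongr
        _ = _ := one_mul _
    · rw [hf0 u hu, norm_zero, zero_mul]
      exact (Real.exp_pos _).le
  have hnorm_a'ξ : ‖star a S.vac‖ ≤ A₂ := by
    have h3 : ‖S.D.apply (mulE f hfc) h‖ ≤ Real.exp ((s + 2 * Δ) / 2) := by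
      refine (apply_norm_apply_le S.D _ h).trans ?_
      rw [hh, mul_one]
      exact hnormE
    rw [hA₂]
    linarith
  have hgain : c' ≤ (cm ω fun t => ((hit S T f (a S.vac) t : ℝ) : ℂ)).re := by
    have hdiff : ‖S.D.apply f (a S.vac) - h‖ ≤ ε₀ := by
      have : S.D.apply f (a S.vac) - h = S.D.apply f (a S.vac - h) := by
        rw [map_sub, hfh]
      rw [this]
      refine (apply_norm_apply_le S.D f _).trans ?_
      calc ‖f‖ * ‖a S.vac - h‖ ≤ 1 * ε₀ := mul_le_mul hfn ha1.le (norm_nonneg _) zero_le_one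
        _ = ε₀ := one_mul _
    have := gain_ge hω T hc h _ hh hmean hdiff hε₀1 (min_le_right _ _)
    have e : (fun t => ((hit S T f (a S.vac) t : ℝ) : ℂ)) =
        fun t => ((‖T (S.D.wave t (S.D.apply f (a S.vac)))‖ ^ 2 : ℝ) : ℂ) := by
      funext t
      unfold hit
      rw [← wave_apply_comm]
    rw [e]
    exact this
  -- the greedy sum
  obtain ⟨V, hVM, hβ, hTV⟩ := exists_good_V herg hω T f hfn haM hc'0 hA₂0.le hnorm_aξ hnorm_a'ξ hgain
  -- truncation and smearing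
  obtain ⟨v, hvM, hvn, hTv, hvξ⟩ := exists_final T hfn hKer hκ₀ hΦ hVM ha₀0 hK0
    (by rw [hK]; linarith) hβ₀0 hβ hTV
  refine ⟨v, hvM, hvn, hTv, ?_⟩
  intro g hg
  rw [hvξ, apply_mul_apply]
  have : g * f = 0 := by
    ext u
    rw [BoundedContinuousFunction.mul_apply]
    change g u * f u = 0
    by_cases hu : u ∈ Set.Icc (s - 4 * δ) (s + 4 * δ)
    · rw [hg u hu, zero_mul]
    · have hu' : u ∉ Set.Icc (s - 2 * δ) (s + 2 * δ) := by
        intro hcon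
        apply hu
        exact ⟨by linarith [hcon.1], by linarith [hcon.2]⟩
      rw [hf0 u hu', mul_zero]
  rw [this, map_zero]
  rfl

end Crest.Agent.S0112Lib
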