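import Crest.Prelude.Def_ModularData

/-!
Basic facts on the bounded functional calculus `LineCalculus`: the star homomorphism, the
unitaries `wave t`, their strong continuity.
-/

set_option autoImplicit false

open Filter MeasureTheory Topology
open scoped InnerProductSpace ComplexConjugate

namespace Crest.Agent.S0112Lib

open Crest.OpAlg

variable {H : Type*} [NormedAddCommGroup H] [InnerProductSpace ℂ H] [CompleteSpace H]

/-- bounded continuous complex functions on the line -/
abbrev BCF := BoundedContinuousFunction ℝ ℂ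

section calcul

variable (D : LineCalculus H)

theorem apply_norm_le (f : BCF) : ‖D.apply f‖ ≤ ‖f‖ :=
  NonUnitalStarAlgHom.norm_apply_le D.apply f

theorem apply_norm_apply_le (f : BCF) (x : H) : ‖D.apply f x‖ ≤ ‖f‖ * ‖x‖ :=
  (D.apply f).le_of_opNorm_le (apply_norm_le D f) x

theorem apply_mul_apply (f g : BCF) (x : H) : D.apply f (D.apply g x) = D.apply (f * g) x := by
  rw [map_mul]; rfl

theorem apply_comm (f g : BCF) (x : H) : D.apply f (D.apply g x) = D.apply g (D.apply f x) := by
  rw [apply_mul_apply, apply_mul_apply, mul_comm]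

theorem apply_one' (x : H) : D.apply 1 x = x := by rw [map_one]; rfl

theorem apply_sub' (f g : BCF) (x : H) : D.apply (f - g) x = D.apply f x - D.apply g x := by
  rw [map_sub]; rfl

theorem star_apply' (f : BCF) : star (D.apply f) = D.apply (star f) := (map_star _ _).symm

theorem inner_apply (f : BCF) (x y : H) :
    inner ℂ x (D.apply f y) = inner ℂ (D.apply (star f) x) y := by
  rw [← star_apply', ContinuousLinearMap.star_eq_adjoint, ContinuousLinearMap.adjoint_inner_left]

theorem character_apply (t u : ℝ) :
    (LineCalculus.character t) u = Complex.exp (Complex.I * ((t * u : ℝ) : ℂ)) := rfl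

theorem character_add (s t : ℝ) :
    LineCalculus.character (s + t) = LineCalculus.character s * LineCalculus.character t := by
  ext u
  rw [BoundedContinuousFunction.mul_apply, character_apply, character_apply, character_apply,
    ← Complex.exp_add]
  congr 1
  push_cast
  ring

theorem character_zero : LineCalculus.character 0 = 1 := by
  ext u
  rw [character_apply]
  simp

theorem star_character (t : ℝ) : star (LineCalculus.character t) = LineCalculus.character (-t) := by
  ext u
  rw [BoundedContinuousFunction.star_apply, character_apply, character_apply]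
  rw [Complex.star_def, ← Complex.exp_conj]
  congr 1
  simp

theorem norm_character_le (t : ℝ) : ‖LineCalculus.character t‖ ≤ 1 := by
  rw [BoundedContinuousFunction.norm_le zero_le_one]
  intro u
  rw [character_apply, Complex.norm_exp]
  simp

theorem wave_def (t : ℝ) : D.wave t = D.apply (LineCalculus.character t) := rfl

theorem wave_add (s t : ℝ) : D.wave (s + t) = D.wave s * D.wave t := by
  rw [wave_def, character_add, map_mul]; rfl

theorem wave_add_apply (s t : ℝ) (x : H) : D.wave (s + t) x = D.wave s (D.wave t x) := by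
  rw [wave_add]; rfl

theorem wave_zero : D.wave 0 = 1 := by
  rw [wave_def, character_zero, map_one]

theorem wave_zero_apply (x : H) : D.wave 0 x = x := by
  rw [wave_zero]; rfl

theorem star_wave (t : ℝ) : star (D.wave t) = D.wave (-t) := by
  rw [wave_def, wave_def, star_apply', star_character]

theorem wave_neg_wave (t : ℝ) (x : H) : D.wave (-t) (D.wave t x) = x := by
  rw [← wave_add_apply]; simp [wave_zero_apply]

theorem wave_wave_neg (t : ℝ) (x : H) : D.wave t (D.wave (-t) x) = x := by
  rw [← wave_add_apply]; simp [wave_zero_apply]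

theorem inner_wave_right (t : ℝ) (x y : H) :
    inner ℂ x (D.wave t y) = inner ℂ (D.wave (-t) x) y := by
  rw [← star_wave, ContinuousLinearMap.star_eq_adjoint, ContinuousLinearMap.adjoint_inner_left]

theorem inner_wave_wave (t : ℝ) (x y : H) : inner ℂ (D.wave t x) (D.wave t y) = inner ℂ x y := by
  rw [inner_wave_right, wave_neg_wave]

theorem norm_wave (t : ℝ) (x : H) : ‖D.wave t x‖ = ‖x‖ := by
  have h := inner_wave_wave D t x x
  rw [inner_self_eq_norm_sq_to_K, inner_self_eq_norm_sq_to_K] at h
  have h2 : ‖D.wave t x‖ ^ 2 = ‖x‖ ^ 2 := by exact_mod_cast h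
  exact (pow_left_inj₀ (norm_nonneg _) (norm_nonneg _) two_ne_zero).1 h2

theorem wave_opNorm_le (t : ℝ) : ‖D.wave t‖ ≤ 1 := by
  refine ContinuousLinearMap.opNorm_le_bound _ zero_le_one fun x => ?_
  rw [norm_wave, one_mul]

/-- wave commutes with the calculus -/
theorem wave_apply_comm (t : ℝ) (f : BCF) (x : H) :
    D.wave t (D.apply f x) = D.apply f (D.wave t x) :=
  apply_comm D _ _ _

/-- a compactly supported calculus cutoff bound -/
theorem exists_radius_of_compactSupport (χ : BCF) (hχ : HasCompactSupport (χ : ℝ → ℂ)) :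
    ∃ R : ℝ, 0 ≤ R ∧ ∀ u, R < |u| → χ u = 0 := by
  obtain ⟨R, hR⟩ := hχ.isCompact.isBounded.subset_closedBall (0 : ℝ)
  refine ⟨max R 0, le_max_right _ _, fun u hu => ?_⟩
  by_contra hne
  have h1 : u ∈ tsupport (χ : ℝ → ℂ) := subset_tsupport _ hne
  have h2 := hR h1
  rw [Metric.mem_closedBall, Real.dist_eq, sub_zero] at h2
  have := lt_of_le_of_lt (le_max_left R 0) hu
  linarith

theorem norm_character_sub_mul_le (χ : BCF) (R : ℝ) (hR : 0 ≤ R) (hχ : ∀ u, R < |u| → χ u = 0)
    (s t : ℝ) :
    ‖LineCalculus.character s * χ - LineCalculus.character t * χ‖ ≤ |s - t| * R * ‖χ‖ := by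
  rw [BoundedContinuousFunction.norm_le (by positivity)]
  intro u
  rw [BoundedContinuousFunction.sub_apply, BoundedContinuousFunction.mul_apply,
    BoundedContinuousFunction.mul_apply, ← sub_mul, norm_mul]
  by_cases hu : R < |u|
  · rw [hχ u hu, norm_zero, mul_zero]; positivity
  · have hu' : |u| ≤ R := not_lt.1 hu
    have h1 : ‖(LineCalculus.character s) u - (LineCalculus.character t) u‖ ≤ |s - t| * R := by
      rw [character_apply, character_apply]
      have : Complex.exp (Complex.I * ((s * u : ℝ) : ℂ)) - Complex.exp (Complex.I * ((t * u : ℝ) : ℂ))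
          = Complex.exp (Complex.I * ((t * u : ℝ) : ℂ)) *
            (Complex.exp (Complex.I * (((s - t) * u : ℝ) : ℂ)) - 1) := by
        rw [mul_sub, ← Complex.exp_add, mul_one]
        congr 2
        push_cast
        ring
      rw [this, norm_mul, Complex.norm_exp]
      have h3 : (Complex.I * ((t * u : ℝ) : ℂ)).re = 0 := by simp
      rw [h3, Real.exp_zero, one_mul]
      refine Real.norm_exp_I_mul_ofReal_sub_one_le.trans ?_
      rw [Real.norm_eq_abs, abs_mul]
      exact mul_le_mul_of_nonneg_left hu' (abs_nonneg _)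
    calc _ ≤ (|s - t| * R) * ‖χ‖ := mul_le_mul h1 (χ.norm_coe_le_norm u) (norm_nonneg _) (by positivity)
      _ = _ := by ring

theorem continuous_character_mul (χ : BCF) (hχ : HasCompactSupport (χ : ℝ → ℂ)) :
    Continuous fun t : ℝ => LineCalculus.character t * χ := by
  obtain ⟨R, hR0, hR⟩ := exists_radius_of_compactSupport χ hχ
  have hlip : LipschitzWith (Real.toNNReal (R * ‖χ‖))
      (fun t : ℝ => LineCalculus.character t * χ) := by
    refine LipschitzWith.of_dist_le_mul fun s t => ?_
    rw [dist_eq_norm, Real.coe_toNNReal _ (by positivity), Real.dist_eq]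
    refine (norm_character_sub_mul_le χ R hR0 hR s t).trans (le_of_eq ?_)
    ring
  exact hlip.continuous

theorem continuous_wave (x : H) : Continuous fun t : ℝ => D.wave t x := by
  rw [Metric.continuous_iff]
  intro t₀ ε hε
  obtain ⟨χ, hχ, hχx⟩ := D.window x (ε / 3) (by positivity)
  have hc : Continuous fun t : ℝ => D.apply (LineCalculus.character t * χ) x := by
    have h1 : Continuous fun g : BCF => D.apply g x :=
      ((ContinuousLinearMap.apply ℂ H x).continuous).comp
        (NonUnitalStarAlgHom.instContinuousLinearMapClassComplex.map_continuous D.apply)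
    exact h1.comp (continuous_character_mul χ hχ)
  obtain ⟨d, hd, hd'⟩ := Metric.continuous_iff.1 hc t₀ (ε / 3) (by positivity)
  refine ⟨d, hd, fun t ht => ?_⟩
  have key : ∀ s : ℝ, D.apply (LineCalculus.character s * χ) x = D.wave s (D.apply χ x) := by
    intro s
    rw [wave_def, apply_mul_apply]
  have h2 := hd' t ht
  rw [key, key, dist_eq_norm] at h2
  rw [dist_eq_norm]
  have e : D.wave t x - D.wave t₀ x =
      (D.wave t (x - D.apply χ x)) + (D.wave t (D.apply χ x) - D.wave t₀ (D.apply χ x))
        - D.wave t₀ (x - D.apply χ x) := by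
    simp only [map_sub]; abel
  rw [e]
  have h3 : ‖x - D.apply χ x‖ < ε / 3 := by rwa [norm_sub_rev]
  calc _ ≤ ‖D.wave t (x - D.apply χ x) + (D.wave t (D.apply χ x) - D.wave t₀ (D.apply χ x))‖
          + ‖D.wave t₀ (x - D.apply χ x)‖ := norm_sub_le _ _
    _ ≤ ‖D.wave t (x - D.apply χ x)‖ + ‖D.wave t (D.apply χ x) - D.wave t₀ (D.apply χ x)‖
          + ‖D.wave t₀ (x - D.apply χ x)‖ := by gcongr; exact norm_add_le _ _
    _ < ε / 3 + ε / 3 + ε / 3 := by
        rw [norm_wave, norm_wave]
        gcongr
    _ = ε := by ring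

end calcul

end Crest.Agent.S0112Lib
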