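import Crest.Agent.S0112Lib.Mean

/-!
Operators defined by weak integrals/means of a bounded family, membership in the von Neumann
algebra, and the mean ergodic formula for an ergodic state.
-/

set_option autoImplicit false

open Filter MeasureTheory Topology
open scoped InnerProductSpace ComplexConjugate

namespace Crest.Agent.S0112Lib

open Crest.OpAlg

variable {H : Type*} [NormedAddCommGroup H] [InnerProductSpace ℂ H] [CompleteSpace H]

/-- Weak integrals: a bounded linear functional on good functions integrates a bounded weakly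
continuous family of operators. -/
theorem exists_op (L : (ℝ → ℂ) → ℂ) (κ : ℝ) (hκ : 0 ≤ κ)
    (hadd : ∀ F G : ℝ → ℂ, Good F → Good G → L (fun t => F t + G t) = L F + L G)
    (hsmul : ∀ (c : ℂ) (F : ℝ → ℂ), Good F → L (fun t => c * F t) = c * L F)
    (hbd : ∀ (F : ℝ → ℂ) (C : ℝ), Good F → (∀ t, ‖F t‖ ≤ C) → ‖L F‖ ≤ κ * C)
    (X : ℝ → H →L[ℂ] H) (c : ℝ) (hc : 0 ≤ c) (hX : ∀ t, ‖X t‖ ≤ c)
    (hcont : ∀ w₁ w₂ : H, Continuous fun t => inner ℂ w₁ (X t w₂)) :
    ∃ A : H →L[ℂ] H, (∀ w₁ w₂ : H, inner ℂ w₁ (A w₂) = L (fun t => inner ℂ w₁ (X t w₂))) ∧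
      ‖A‖ ≤ κ * c := by
  have hnorm : ∀ (w₁ w₂ : H) t, ‖inner ℂ w₁ (X t w₂)‖ ≤ c * ‖w₁‖ * ‖w₂‖ := by
    intro w₁ w₂ t
    calc ‖inner ℂ w₁ (X t w₂)‖ ≤ ‖w₁‖ * ‖X t w₂‖ := norm_inner_le_norm _ _
      _ ≤ ‖w₁‖ * (‖X t‖ * ‖w₂‖) := by gcongr; exact (X t).le_opNorm w₂
      _ ≤ ‖w₁‖ * (c * ‖w₂‖) := by gcongr; exact hX t
      _ = c * ‖w₁‖ * ‖w₂‖ := by ring
  have hgood : ∀ w₁ w₂ : H, Good (fun t => inner ℂ w₁ (X t w₂)) :=
    fun w₁ w₂ => ⟨hcont w₁ w₂, _, hnorm w₁ w₂⟩
  -- the conjugate functional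
  let ℓ : H → StrongDual ℂ H := fun w₂ =>
    LinearMap.mkContinuous
      { toFun := fun w₁ => conj (L (fun t => inner ℂ w₁ (X t w₂)))
        map_add' := by
          intro a b
          have : (fun t => inner ℂ (a + b) (X t w₂)) =
              fun t => inner ℂ a (X t w₂) + inner ℂ b (X t w₂) := by
            funext t; rw [inner_add_left]
          rw [this, hadd _ _ (hgood a w₂) (hgood b w₂), map_add]
        map_smul' := by
          intro e a
          have : (fun t => inner ℂ (e • a) (X t w₂)) =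
              fun t => conj e * inner ℂ a (X t w₂) := by
            funext t; rw [inner_smul_left]
          simp only [RingHom.id_apply]
          rw [this, hsmul _ _ (hgood a w₂), map_mul, Complex.conj_conj, smul_eq_mul] }
      (κ * c * ‖w₂‖)
      (fun w₁ => by
        simp only [LinearMap.coe_mk, AddHom.coe_mk]
        rw [RCLike.norm_conj]
        have := hbd _ _ (hgood w₁ w₂) (hnorm w₁ w₂)
        calc _ ≤ κ * (c * ‖w₁‖ * ‖w₂‖) := this
          _ = _ := by ring)
  have hℓ : ∀ w₁ w₂ : H, ℓ w₂ w₁ = conj (L (fun t => inner ℂ w₁ (X t w₂))) := fun _ _ => rfl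
  let A₀ : H → H := fun w₂ => (InnerProductSpace.toDual ℂ H).symm (ℓ w₂)
  have hA₀ : ∀ w₁ w₂ : H, inner ℂ w₁ (A₀ w₂) = L (fun t => inner ℂ w₁ (X t w₂)) := by
    intro w₁ w₂
    have h := InnerProductSpace.toDual_symm_apply (𝕜 := ℂ) (E := H) (x := w₁) (y := ℓ w₂)
    rw [← inner_conj_symm]
    change conj (inner ℂ ((InnerProductSpace.toDual ℂ H).symm (ℓ w₂)) w₁) = _
    rw [h, hℓ, Complex.conj_conj]
  let A₁ : H →ₗ[ℂ] H :=
    { toFun := A₀
      map_add' := by
        intro a b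
        refine ext_inner_left ℂ fun w₁ => ?_
        rw [inner_add_right, hA₀, hA₀, hA₀]
        have : (fun t => inner ℂ w₁ (X t (a + b))) =
            fun t => inner ℂ w₁ (X t a) + inner ℂ w₁ (X t b) := by
          funext t; rw [map_add, inner_add_right]
        rw [this, hadd _ _ (hgood w₁ a) (hgood w₁ b)]
      map_smul' := by
        intro e a
        refine ext_inner_left ℂ fun w₁ => ?_
        rw [RingHom.id_apply, inner_smul_right, hA₀, hA₀]
        have : (fun t => inner ℂ w₁ (X t (e • a))) =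
            fun t => e * inner ℂ w₁ (X t a) := by
          funext t; rw [map_smul, inner_smul_right]
        rw [this, hsmul _ _ (hgood w₁ a)] }
  have hbound : ∀ w₂ : H, ‖A₁ w₂‖ ≤ (κ * c) * ‖w₂‖ := by
    intro w₂
    have h1 : A₁ w₂ = A₀ w₂ := rfl
    rw [h1]
    by_cases h0 : A₀ w₂ = 0
    · rw [h0, norm_zero]; positivity
    · have hpos : 0 < ‖A₀ w₂‖ := norm_pos_iff.2 h0
      have h2 := hA₀ (A₀ w₂) w₂
      rw [inner_self_eq_norm_sq_to_K] at h2
      have h3 := hbd _ _ (hgood (A₀ w₂) w₂) (hnorm (A₀ w₂) w₂)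
      rw [← h2, norm_pow] at h3
      simp only [Complex.coe_algebraMap, Complex.norm_real, norm_norm] at h3
      have h4 : ‖A₀ w₂‖ * ‖A₀ w₂‖ ≤ (κ * c * ‖w₂‖) * ‖A₀ w₂‖ := by
        calc _ = ‖A₀ w₂‖ ^ 2 := by ring
          _ ≤ _ := h3
          _ = _ := by ring
      exact le_of_mul_le_mul_right h4 hpos
  refine ⟨LinearMap.mkContinuous A₁ (κ * c) hbound, fun w₁ w₂ => hA₀ w₁ w₂, ?_⟩
  exact LinearMap.mkContinuous_norm_le _ (by positivity) hbound

/-- Weak integrals of elements of a von Neumann algebra stay in it. -/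
theorem op_mem (M : VonNeumannAlgebra H) (L : (ℝ → ℂ) → ℂ) (X : ℝ → H →L[ℂ] H)
    (hX : ∀ t, X t ∈ M) (A : H →L[ℂ] H)
    (hA : ∀ w₁ w₂ : H, inner ℂ w₁ (A w₂) = L (fun t => inner ℂ w₁ (X t w₂))) : A ∈ M := by
  have hc := M.centralizer_centralizer
  have : A ∈ Set.centralizer (Set.centralizer (M : Set (H →L[ℂ] H))) := by
    rw [Set.mem_centralizer_iff]
    intro b hb
    rw [Set.mem_centralizer_iff] at hb
    ext w₂
    refine ext_inner_left ℂ fun w₁ => ?_
    change inner ℂ w₁ (b (A w₂)) = inner ℂ w₁ (A (b w₂))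
    have e1 : inner ℂ w₁ (b (A w₂)) = inner ℂ (star b w₁) (A w₂) := by
      rw [ContinuousLinearMap.star_eq_adjoint, ContinuousLinearMap.adjoint_inner_left]
    rw [e1, hA, hA]
    congr 1
    funext t
    have e2 : inner ℂ (star b w₁) (X t w₂) = inner ℂ w₁ (b (X t w₂)) := by
      rw [ContinuousLinearMap.star_eq_adjoint, ContinuousLinearMap.adjoint_inner_left]
    rw [e2]
    have e3 := hb (X t) (hX t)
    have e4 : (X t * b) w₂ = (b * X t) w₂ := by rw [e3]
    have e5 : X t (b w₂) = b (X t w₂) := e4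
    rw [e5]
  rw [hc] at this
  exact this

section flow

variable (S : ModularDatum H)

theorem flow_apply (t : ℝ) (a : H →L[ℂ] H) (x : H) :
    S.flow t a x = S.D.wave t (a (S.D.wave (-t) x)) := rfl

theorem flow_vac (t : ℝ) (a : H →L[ℂ] H) : S.flow t a S.vac = S.D.wave t (a S.vac) := by
  rw [flow_apply, wave_vac]

theorem flow_mem' (t : ℝ) {a : H →L[ℂ] H} (ha : a ∈ S.M) : S.flow t a ∈ S.M :=
  S.flow_mem t a ha

theorem star_flow (t : ℝ) (a : H →L[ℂ] H) : star (S.flow t a) = S.flow t (star a) := by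
  unfold ModularDatum.flow
  rw [star_mul, star_mul, star_wave, star_wave, neg_neg, mul_assoc]

theorem flow_mul (t : ℝ) (a b : H →L[ℂ] H) : S.flow t (a * b) = S.flow t a * S.flow t b := by
  ext x
  change S.D.wave t (a (b (S.D.wave (-t) x))) =
    S.D.wave t (a (S.D.wave (-t) (S.D.wave t (b (S.D.wave (-t) x)))))
  rw [wave_neg_wave]

theorem flow_add (t : ℝ) (a b : H →L[ℂ] H) : S.flow t (a + b) = S.flow t a + S.flow t b := by
  ext x
  change S.D.wave t (a (S.D.wave (-t) x) + b (S.D.wave (-t) x)) =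
    S.D.wave t (a (S.D.wave (-t) x)) + S.D.wave t (b (S.D.wave (-t) x))
  rw [map_add]

theorem flow_smul (t : ℝ) (c : ℂ) (a : H →L[ℂ] H) : S.flow t (c • a) = c • S.flow t a := by
  ext x
  change S.D.wave t (c • a (S.D.wave (-t) x)) = c • S.D.wave t (a (S.D.wave (-t) x))
  rw [map_smul]

theorem flow_flow (r t : ℝ) (a : H →L[ℂ] H) : S.flow r (S.flow t a) = S.flow (r + t) a := by
  ext x
  change S.D.wave r (S.D.wave t (a (S.D.wave (-t) (S.D.wave (-r) x)))) =
    S.D.wave (r + t) (a (S.D.wave (-(r + t)) x))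
  rw [wave_add_apply, neg_add', sub_eq_add_neg, add_comm (-r), wave_add_apply]

theorem inner_flow (t : ℝ) (a : H →L[ℂ] H) (x y : H) :
    inner ℂ x (S.flow t a y) = inner ℂ (S.D.wave (-t) x) (a (S.D.wave (-t) y)) := by
  rw [flow_apply, inner_wave_right]

theorem norm_flow_apply_le (t : ℝ) (a : H →L[ℂ] H) (x : H) : ‖S.flow t a x‖ ≤ ‖a‖ * ‖x‖ := by
  rw [flow_apply, norm_wave]
  refine (a.le_opNorm _).trans ?_
  rw [norm_wave]

theorem norm_flow_le (t : ℝ) (a : H →L[ℂ] H) : ‖S.flow t a‖ ≤ ‖a‖ :=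
  ContinuousLinearMap.opNorm_le_bound _ (norm_nonneg _) fun x => norm_flow_apply_le S t a x

theorem continuous_inner_flow (a : H →L[ℂ] H) (x y : H) :
    Continuous fun t : ℝ => inner ℂ x (S.flow t a y) := by
  have h : (fun t : ℝ => inner ℂ x (S.flow t a y)) =
      fun t : ℝ => inner ℂ (S.D.wave (-t) x) (a (S.D.wave (-t) y)) := by
    funext t; exact inner_flow S t a x y
  rw [h]
  have h1 : Continuous fun t : ℝ => S.D.wave (-t) x := (continuous_wave S.D x).comp continuous_neg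
  have h2 : Continuous fun t : ℝ => S.D.wave (-t) y := (continuous_wave S.D y).comp continuous_neg
  exact h1.inner (a.continuous.comp h2)

theorem good_inner_flow (a : H →L[ℂ] H) (x y : H) :
    Good fun t : ℝ => inner ℂ x (S.flow t a y) := by
  refine ⟨continuous_inner_flow S a x y, ‖x‖ * (‖a‖ * ‖y‖), fun t => ?_⟩
  refine (norm_inner_le_norm _ _).trans ?_
  gcongr
  exact norm_flow_apply_le S t a y

end flow

section ergodic

variable {S : ModularDatum H} (herg : S.Ergodic) {ω : Ultrafilter ℕ}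
  (hω : (ω : Filter ℕ) ≤ atTop)

include herg hω

/-- The mean ergodic formula. -/
theorem mean_flow {x : H →L[ℂ] H} (hx : x ∈ S.M) (w₁ w₂ : H) :
    cm ω (fun t => inner ℂ w₁ (S.flow t x w₂)) = inner ℂ S.vac (x S.vac) * inner ℂ w₁ w₂ := by
  obtain ⟨A, hA, -⟩ := exists_op (H := H) (cm ω) 1 zero_le_one
    (fun F G hF hG => cm_add ω hF hG) (fun c F hF => cm_const_mul ω hF c)
    (fun F C hF hC => by rw [one_mul]; exact norm_cm_le ω hF hC)
    (fun t => S.flow t x) ‖x‖ (norm_nonneg _) (fun t => norm_flow_le S t x)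
    (fun w₁ w₂ => continuous_inner_flow S x w₁ w₂)
  have hAM : A ∈ S.M := op_mem S.M (cm ω) (fun t => S.flow t x)
    (fun t => flow_mem' S t hx) A hA
  have hinv : ∀ t, S.flow t A = A := by
    intro r
    ext w₂
    refine ext_inner_left ℂ fun w₁ => ?_
    rw [inner_flow, hA]
    have e : (fun t => inner ℂ (S.D.wave (-r) w₁) (S.flow t x (S.D.wave (-r) w₂))) =
        fun t => (fun t' => inner ℂ w₁ (S.flow t' x w₂)) (r + t) := by
      funext t
      change _ = inner ℂ w₁ (S.flow (r + t) x w₂)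
      rw [← flow_flow S r t x, inner_flow S r]
    rw [e, cm_shift hω (good_inner_flow S x w₁ w₂), hA]
  obtain ⟨c, hc⟩ := herg A hAM hinv
  have hvac : inner ℂ S.vac (A S.vac) = inner ℂ S.vac (x S.vac) := by
    rw [hA]
    have e : (fun t => inner ℂ S.vac (S.flow t x S.vac)) = fun _ => inner ℂ S.vac (x S.vac) := by
      funext t
      rw [inner_flow, wave_vac]
    rw [e, cm_const hω]
  have hc' : c = inner ℂ S.vac (x S.vac) := by
    have h1 : inner ℂ S.vac S.vac = (1 : ℂ) := by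
      rw [inner_self_eq_norm_sq_to_K, S.norm_vac]
      simp
    rw [← hvac, hc, ContinuousLinearMap.smul_apply, ContinuousLinearMap.one_apply,
      inner_smul_right, h1, mul_one]
  rw [← hA, hc, ContinuousLinearMap.smul_apply, ContinuousLinearMap.one_apply, inner_smul_right,
    hc']

/-- The reflected form. -/
theorem mean_flow_neg {x : H →L[ℂ] H} (hx : x ∈ S.M) (w₁ w₂ : H) :
    cm ω (fun t => inner ℂ w₁ (S.flow (-t) x w₂)) = inner ℂ S.vac (x S.vac) * inner ℂ w₁ w₂ := by
  rw [cm_neg hω (good_inner_flow S x w₁ w₂) (F := fun t => inner ℂ w₁ (S.flow t x w₂))]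
  exact mean_flow herg hω hx w₁ w₂

end ergodic

end Crest.Agent.S0112Lib
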