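import Crest.Agent.S0112Lib.Trunc

/-!
Greedy selection of times and signs: the sum `V = ∑ ε_k σ_{t_k}(b)` with a good lower bound for
`‖T ψ(f) V ξ‖²` against the fourth moment `‖V⋆ V ξ‖²`.
-/

set_option autoImplicit false

open Filter MeasureTheory Topology
open scoped InnerProductSpace ComplexConjugate

namespace Crest.Agent.S0112Lib

open Crest.OpAlg

variable {H : Type*} [NormedAddCommGroup H] [InnerProductSpace ℂ H] [CompleteSpace H]

theorem paral (x y : H) : ‖x + y‖ ^ 2 + ‖x - y‖ ^ 2 = 2 * (‖x‖ ^ 2 + ‖y‖ ^ 2) := by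
  have := parallelogram_law_with_norm (𝕜 := ℂ) x y
  nlinarith [this]

theorem norm_add_sq_le (x y : H) : ‖x + y‖ ^ 2 ≤ 2 * ‖x‖ ^ 2 + 2 * ‖y‖ ^ 2 := by
  have := paral x y
  nlinarith [sq_nonneg ‖x - y‖]

section greedy

variable (S : ModularDatum H) (T : H →L[ℂ] H) (f : BCF)

/-- the objective's main term -/
noncomputable def qA (V : H →L[ℂ] H) : ℝ := ‖T (S.D.apply f (V S.vac))‖ ^ 2
/-- the fourth moment -/
noncomputable def qB (V : H →L[ℂ] H) : ℝ := ‖star V (V S.vac)‖ ^ 2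
/-- the second moment -/
noncomputable def qP (V : H →L[ℂ] H) : ℝ := ‖V S.vac‖ ^ 2
/-- the adjoint second moment -/
noncomputable def qQ (V : H →L[ℂ] H) : ℝ := ‖star V S.vac‖ ^ 2

/-- the objective -/
noncomputable def obj (lam α β γ : ℝ) (V : H →L[ℂ] H) : ℝ :=
  qA S T f V - lam * (qB S V + α * qP S V + β * qQ S V + γ)

/-- the gain -/
noncomputable def hit (z : H) (t : ℝ) : ℝ := ‖T (S.D.apply f (S.D.wave t z))‖ ^ 2

theorem hit_bound (z : H) (t : ℝ) : hit S T f z t ≤ (‖T‖ * ‖S.D.apply f‖ * ‖z‖) ^ 2 := by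
  unfold hit
  have h : ‖T (S.D.apply f (S.D.wave t z))‖ ≤ ‖T‖ * ‖S.D.apply f‖ * ‖z‖ := by
    calc _ ≤ ‖T‖ * ‖S.D.apply f (S.D.wave t z)‖ := T.le_opNorm _
      _ ≤ ‖T‖ * (‖S.D.apply f‖ * ‖S.D.wave t z‖) := by gcongr; exact (S.D.apply f).le_opNorm _
      _ = _ := by rw [norm_wave]; ring
  exact pow_le_pow_left₀ (norm_nonneg _) h 2

theorem hit_nonneg (z : H) (t : ℝ) : 0 ≤ hit S T f z t := by
  unfold hit; positivity

theorem continuous_hit (z : H) : Continuous (hit S T f z) := by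
  unfold hit
  have h := continuous_wave S.D z
  have h2 : Continuous fun t : ℝ => T (S.D.apply f (S.D.wave t z)) :=
    T.continuous.comp ((S.D.apply f).continuous.comp h)
  exact h2.norm.pow 2

theorem good_hit (z : H) : Good fun t => ((hit S T f z t : ℝ) : ℂ) := by
  refine ⟨Complex.continuous_ofReal.comp (continuous_hit S T f z),
    (‖T‖ * ‖S.D.apply f‖ * ‖z‖) ^ 2, fun t => ?_⟩
  rw [Complex.norm_real, Real.norm_eq_abs, abs_of_nonneg (hit_nonneg S T f z t)]
  exact hit_bound S T f z t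

theorem flow_vac_norm (t : ℝ) (b : H →L[ℂ] H) : ‖S.flow t b S.vac‖ = ‖b S.vac‖ := by
  rw [flow_vac, norm_wave]

theorem avg_obj (lam α β γ : ℝ) (V b : H →L[ℂ] H) (t : ℝ) :
    (obj S T f lam α β γ (V + S.flow t b) + obj S T f lam α β γ (V - S.flow t b)) / 2 =
      qA S T f V + hit S T f (b S.vac) t -
        lam * (‖star V (V S.vac) + star (S.flow t b) (S.flow t b S.vac)‖ ^ 2 +
          ‖star V (S.flow t b S.vac) + star (S.flow t b) (V S.vac)‖ ^ 2 +
          α * (qP S V + qP S b) + β * (qQ S V + qQ S b) + γ) := by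
  set Bt := S.flow t b with hBt
  have hA : qA S T f (V + Bt) + qA S T f (V - Bt) = 2 * (qA S T f V + hit S T f (b S.vac) t) := by
    unfold qA hit
    have h1 : T (S.D.apply f ((V + Bt) S.vac)) =
        T (S.D.apply f (V S.vac)) + T (S.D.apply f (Bt S.vac)) := by
      simp only [ContinuousLinearMap.add_apply, map_add]
    have h2 : T (S.D.apply f ((V - Bt) S.vac)) =
        T (S.D.apply f (V S.vac)) - T (S.D.apply f (Bt S.vac)) := by
      simp only [ContinuousLinearMap.sub_apply, map_sub]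
    rw [h1, h2, paral, hBt, flow_vac]
  have hP : qP S (V + Bt) + qP S (V - Bt) = 2 * (qP S V + qP S b) := by
    unfold qP
    simp only [ContinuousLinearMap.add_apply, ContinuousLinearMap.sub_apply]
    rw [paral, hBt, flow_vac_norm]
  have hQ : qQ S (V + Bt) + qQ S (V - Bt) = 2 * (qQ S V + qQ S b) := by
    unfold qQ
    rw [star_add, star_sub]
    simp only [ContinuousLinearMap.add_apply, ContinuousLinearMap.sub_apply]
    rw [paral, hBt, star_flow, flow_vac_norm]
  have hB : qB S (V + Bt) + qB S (V - Bt) =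
      2 * (‖star V (V S.vac) + star Bt (Bt S.vac)‖ ^ 2 +
        ‖star V (Bt S.vac) + star Bt (V S.vac)‖ ^ 2) := by
    unfold qB
    rw [star_add, star_sub]
    simp only [ContinuousLinearMap.add_apply, ContinuousLinearMap.sub_apply, map_add, map_sub]
    rw [← paral]
    congr 2
    · congr 1; abel
    · congr 1; abel
  unfold obj
  linear_combination (1 / 2) * hA - (lam / 2) * hB - (lam * α / 2) * hP - (lam * β / 2) * hQ

/-- first cross term -/
noncomputable def e₁ (V b : H →L[ℂ] H) (t : ℝ) : ℂ :=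
  inner ℂ (star V (V S.vac)) (S.flow t (star b * b) S.vac)
/-- second cross term -/
noncomputable def e₂ (V b : H →L[ℂ] H) (t : ℝ) : ℂ :=
  inner ℂ (b S.vac) (S.flow (-t) (V * star V) (b S.vac))
/-- third cross term -/
noncomputable def e₃ (V b : H →L[ℂ] H) (t : ℝ) : ℂ :=
  inner ℂ (V S.vac) (S.flow t (b * star b) (V S.vac))

theorem norm_X_sq (V b : H →L[ℂ] H) (t : ℝ) :
    ‖star V (V S.vac) + star (S.flow t b) (S.flow t b S.vac)‖ ^ 2 =
      qB S V + 2 * (e₁ S V b t).re + qB S b := by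
  have h1 : star (S.flow t b) (S.flow t b S.vac) = S.flow t (star b * b) S.vac := by
    rw [star_flow, flow_mul]
    rfl
  rw [h1, norm_add_sq (𝕜 := ℂ)]
  unfold qB e₁
  have h2 : ‖S.flow t (star b * b) S.vac‖ = ‖star b (b S.vac)‖ := by
    rw [flow_vac_norm]; rfl
  rw [h2]
  simp

theorem norm_Y_sq_le (V b : H →L[ℂ] H) (t : ℝ) :
    ‖star V (S.flow t b S.vac) + star (S.flow t b) (V S.vac)‖ ^ 2 ≤
      2 * (e₂ S V b t).re + 2 * (e₃ S V b t).re := by
  refine (norm_add_sq_le _ _).trans (le_of_eq ?_)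
  have h2 : ‖star V (S.flow t b S.vac)‖ ^ 2 = (e₂ S V b t).re := by
    unfold e₂
    rw [inner_flow, neg_neg, flow_vac]
    have := norm_sq_star_apply (star V) (S.D.wave t (b S.vac))
    rw [star_star] at this
    exact this
  have h3 : ‖star (S.flow t b) (V S.vac)‖ ^ 2 = (e₃ S V b t).re := by
    unfold e₃
    have := norm_sq_star_apply (star (S.flow t b)) (V S.vac)
    rw [star_star] at this
    rw [this, flow_mul, star_flow]
  rw [h2, h3]

variable {S} (herg : S.Ergodic) {ω : Ultrafilter ℕ} (hω : (ω : Filter ℕ) ≤ atTop)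

theorem inner_vac_star_mul (b : H →L[ℂ] H) :
    inner ℂ S.vac ((star b * b) S.vac) = ((qP S b : ℝ) : ℂ) := by
  change inner ℂ S.vac (star b (b S.vac)) = _
  rw [ContinuousLinearMap.star_eq_adjoint, ContinuousLinearMap.adjoint_inner_right,
    inner_self_eq_norm_sq_to_K]
  unfold qP
  norm_cast

include herg hω

theorem cm_e₁ {b : H →L[ℂ] H} (hb : b ∈ S.M) (V : H →L[ℂ] H) :
    cm ω (e₁ S V b) = ((qP S b * qP S V : ℝ) : ℂ) := by
  unfold e₁
  rw [mean_flow herg hω (mul_mem (star_mem hb) hb), inner_vac_star_mul]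
  have : inner ℂ (star V (V S.vac)) S.vac = ((qP S V : ℝ) : ℂ) := by
    rw [← inner_conj_symm]
    have h1 := inner_vac_star_mul (S := S) V
    change conj (inner ℂ S.vac (star V (V S.vac))) = _
    change inner ℂ S.vac ((star V * V) S.vac) = _ at h1
    change conj (inner ℂ S.vac ((star V * V) S.vac)) = _
    rw [h1, Complex.conj_ofReal]
  rw [this]
  push_cast
  ring

theorem cm_e₂ {V : H →L[ℂ] H} (hV : V ∈ S.M) (b : H →L[ℂ] H) :
    cm ω (e₂ S V b) = ((qQ S V * qP S b : ℝ) : ℂ) := by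
  unfold e₂
  rw [mean_flow_neg herg hω (mul_mem hV (star_mem hV))]
  have h1 := inner_vac_star_mul (S := S) (star V)
  rw [star_star] at h1
  rw [h1, inner_self_eq_norm_sq_to_K]
  unfold qP qQ
  simp

theorem cm_e₃ {b : H →L[ℂ] H} (hb : b ∈ S.M) (V : H →L[ℂ] H) :
    cm ω (e₃ S V b) = ((qQ S b * qP S V : ℝ) : ℂ) := by
  unfold e₃
  rw [mean_flow herg hω (mul_mem hb (star_mem hb))]
  have h1 := inner_vac_star_mul (S := S) (star b)
  rw [star_star] at h1
  rw [h1, inner_self_eq_norm_sq_to_K]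
  unfold qP qQ
  simp

/-- One greedy step. -/
theorem greedy_step {V b : H →L[ℂ] H} (hV : V ∈ S.M) (hb : b ∈ S.M) {lam : ℝ} (hlam : 0 ≤ lam)
    (α β γ : ℝ) {ε : ℝ} (hε : 0 < ε) :
    ∃ V' : H →L[ℂ] H, V' ∈ S.M ∧
      obj S T f lam α β γ V' ≥
        obj S T f lam (α + 2 * qP S b + 2 * qQ S b) (β + 2 * qP S b)
          (γ + qB S b + α * qP S b + β * qQ S b) V
        + (cm ω fun t => ((hit S T f (b S.vac) t : ℝ) : ℂ)).re - ε := by
  -- the complex function to average
  set F : ℝ → ℂ := fun t => ((hit S T f (b S.vac) t : ℝ) : ℂ)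
    + (((-(2 * lam) : ℝ) : ℂ) * e₁ S V b t + (((-(2 * lam) : ℝ) : ℂ) * e₂ S V b t
      + ((-(2 * lam) : ℝ) : ℂ) * e₃ S V b t)) with hF
  have g1 : Good (e₁ S V b) := good_inner_flow S _ _ _
  have g2 : Good (e₂ S V b) := by
    have := (good_inner_flow S (V * star V) (b S.vac) (b S.vac)).comp_neg
    exact this
  have g3 : Good (e₃ S V b) := good_inner_flow S _ _ _
  have g0 := good_hit S T f (b S.vac)
  have gF : Good F := g0.add ((g1.const_mul _).add ((g2.const_mul _).add (g3.const_mul _)))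
  have hmean : (cm ω F).re = (cm ω fun t => ((hit S T f (b S.vac) t : ℝ) : ℂ)).re
      - lam * (2 * (qP S b * qP S V) + 2 * (qQ S V * qP S b) + 2 * (qQ S b * qP S V)) := by
    rw [hF, cm_add ω g0 ((g1.const_mul _).add ((g2.const_mul _).add (g3.const_mul _))),
      cm_add ω (g1.const_mul _) ((g2.const_mul _).add (g3.const_mul _)),
      cm_add ω (g2.const_mul _) (g3.const_mul _), cm_const_mul ω g1, cm_const_mul ω g2,
      cm_const_mul ω g3, cm_e₁ herg hω hb, cm_e₂ herg hω hV, cm_e₃ herg hω hb]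
    simp only [Complex.add_re, ← Complex.ofReal_mul, Complex.ofReal_re]
    ring
  obtain ⟨t, ht⟩ := exists_re_ge hω gF hε
  have hFt : (F t).re = hit S T f (b S.vac) t - lam * (2 * (e₁ S V b t).re + 2 * (e₂ S V b t).re
      + 2 * (e₃ S V b t).re) := by
    rw [hF]
    simp only [Complex.add_re, Complex.re_ofReal_mul, Complex.ofReal_re]
    ring
  have havg := avg_obj S T f lam α β γ V b t
  have hX := norm_X_sq S V b t
  have hY := norm_Y_sq_le S V b t
  set Bt := S.flow t b with hBt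
  have hBtM : Bt ∈ S.M := flow_mem' S t hb
  have hlow : (obj S T f lam α β γ (V + Bt) + obj S T f lam α β γ (V - Bt)) / 2 ≥
      obj S T f lam (α + 2 * qP S b + 2 * qQ S b) (β + 2 * qP S b)
          (γ + qB S b + α * qP S b + β * qQ S b) V
        + (cm ω fun t => ((hit S T f (b S.vac) t : ℝ) : ℂ)).re - ε := by
    rw [havg, hX]
    have h4 := mul_le_mul_of_nonneg_left hY hlam
    unfold obj
    rw [hmean, hFt] at ht
    nlinarith [h4, ht]
  by_cases hcase : obj S T f lam α β γ (V + Bt) ≥ obj S T f lam α β γ (V - Bt)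
  · exact ⟨V + Bt, add_mem hV hBtM, by linarith⟩
  · exact ⟨V - Bt, sub_mem hV hBtM, by push Not at hcase; linarith⟩

/-- Coefficients of the recursion. -/
noncomputable def gC (p q r : ℝ) : ℕ → ℝ
  | 0 => 0
  | j + 1 => gC p q r j + r + (j : ℝ) * (2 * p + 2 * q) * p + (j : ℝ) * (2 * p) * q

omit herg hω in
theorem gC_succ (p q r : ℝ) (j : ℕ) :
    gC p q r (j + 1) = gC p q r j + r + (j : ℝ) * (2 * p + 2 * q) * p + (j : ℝ) * (2 * p) * q := rfl

omit herg hω in
theorem gC_le {p q r : ℝ} (hp : 0 ≤ p) (hq : 0 ≤ q) (j : ℕ) :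
    gC p q r j ≤ (j : ℝ) * r + (j : ℝ) ^ 2 * (p ^ 2 + 2 * p * q) := by
  induction j with
  | zero => simp [gC]
  | succ j ih =>
    unfold gC
    push_cast
    have h : 0 ≤ p ^ 2 + 2 * p * q := by positivity
    nlinarith [ih, h]

/-- The greedy sum. -/
theorem greedy_sum {b : H →L[ℂ] H} (hb : b ∈ S.M) {lam : ℝ} (hlam : 0 ≤ lam) {ε : ℝ} (hε : 0 < ε)
    (j : ℕ) : ∀ V : H →L[ℂ] H, V ∈ S.M → ∃ V' : H →L[ℂ] H, V' ∈ S.M ∧
      qA S T f V' - lam * qB S V' ≥
        obj S T f lam ((j : ℝ) * (2 * qP S b + 2 * qQ S b)) ((j : ℝ) * (2 * qP S b))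
          (gC (qP S b) (qQ S b) (qB S b) j) V
        + (j : ℝ) * ((cm ω fun t => ((hit S T f (b S.vac) t : ℝ) : ℂ)).re - ε) := by
  induction j with
  | zero =>
    intro V hV
    refine ⟨V, hV, ?_⟩
    unfold obj
    simp [gC]
  | succ j ih =>
    intro V hV
    obtain ⟨V₁, hV₁, h1⟩ := greedy_step T f herg hω hV hb hlam
      ((j : ℝ) * (2 * qP S b + 2 * qQ S b)) ((j : ℝ) * (2 * qP S b))
      (gC (qP S b) (qQ S b) (qB S b) j) hε
    obtain ⟨V₂, hV₂, h2⟩ := ih V₁ hV₁
    refine ⟨V₂, hV₂, ?_⟩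
    have e : obj S T f lam (((j + 1 : ℕ) : ℝ) * (2 * qP S b + 2 * qQ S b))
        (((j + 1 : ℕ) : ℝ) * (2 * qP S b)) (gC (qP S b) (qQ S b) (qB S b) (j + 1)) V =
        obj S T f lam ((j : ℝ) * (2 * qP S b + 2 * qQ S b) + 2 * qP S b + 2 * qQ S b)
          ((j : ℝ) * (2 * qP S b) + 2 * qP S b)
          (gC (qP S b) (qQ S b) (qB S b) j + qB S b + ((j : ℝ) * (2 * qP S b + 2 * qQ S b)) * qP S b
            + ((j : ℝ) * (2 * qP S b)) * qQ S b) V := by
      rw [gC_succ]
      unfold obj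
      push_cast
      ring
    rw [e]
    push_cast
    nlinarith [h1, h2]

end greedy

end Crest.Agent.S0112Lib
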