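import Crest.Agent.S0112Lib.Vac

/-!
The ultrafilter mean on bounded continuous functions: linearity, bounds, shift and reflection
invariance, comparison with `ultraMean`.
-/

set_option autoImplicit false

open Filter MeasureTheory Topology
open scoped InnerProductSpace ComplexConjugate

namespace Crest.Agent.S0112Lib

open Crest.OpAlg

/-- bounded continuous, as a predicate -/
structure Good (F : ℝ → ℂ) : Prop where
  cont : Continuous F
  bdd : ∃ C : ℝ, ∀ t, ‖F t‖ ≤ C

theorem Good.add {F G : ℝ → ℂ} (hF : Good F) (hG : Good G) : Good (fun t => F t + G t) := by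
  obtain ⟨C, hC⟩ := hF.bdd
  obtain ⟨C', hC'⟩ := hG.bdd
  exact ⟨hF.cont.add hG.cont, C + C', fun t => (norm_add_le _ _).trans (add_le_add (hC t) (hC' t))⟩

theorem Good.const_mul {F : ℝ → ℂ} (hF : Good F) (c : ℂ) : Good (fun t => c * F t) := by
  obtain ⟨C, hC⟩ := hF.bdd
  refine ⟨continuous_const.mul hF.cont, ‖c‖ * C, fun t => ?_⟩
  rw [norm_mul]
  exact mul_le_mul_of_nonneg_left (hC t) (norm_nonneg _)

theorem good_const (c : ℂ) : Good (fun _ => c) := ⟨continuous_const, ‖c‖, fun _ => le_rfl⟩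

theorem Good.comp_add {F : ℝ → ℂ} (hF : Good F) (r : ℝ) : Good (fun t => F (r + t)) := by
  obtain ⟨C, hC⟩ := hF.bdd
  exact ⟨hF.cont.comp (continuous_const.add continuous_id), C, fun t => hC _⟩

theorem Good.comp_neg {F : ℝ → ℂ} (hF : Good F) : Good (fun t => F (-t)) := by
  obtain ⟨C, hC⟩ := hF.bdd
  exact ⟨hF.cont.comp continuous_neg, C, fun t => hC _⟩

/-- window average of a complex function -/
noncomputable def wm (F : ℝ → ℂ) (k : ℕ) : ℂ :=
  ((2 * (k : ℝ) : ℝ) : ℂ)⁻¹ * ∫ t in (-(k : ℝ))..(k : ℝ), F t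

/-- the mean along the ultrafilter -/
noncomputable def cm (ω : Ultrafilter ℕ) (F : ℝ → ℂ) : ℂ := limUnder (ω : Filter ℕ) (wm F)

theorem norm_wm_le {F : ℝ → ℂ} {C : ℝ} (hC : ∀ t, ‖F t‖ ≤ C) (k : ℕ) : ‖wm F k‖ ≤ C := by
  have hC0 : 0 ≤ C := (norm_nonneg _).trans (hC 0)
  unfold wm
  rcases Nat.eq_zero_or_pos k with rfl | hk
  · simp [hC0]
  · have hk' : (0 : ℝ) < k := by exact_mod_cast hk
    have h1 : ‖∫ t in (-(k : ℝ))..(k : ℝ), F t‖ ≤ C * |(k : ℝ) - (-(k : ℝ))| :=
      intervalIntegral.norm_integral_le_of_norm_le_const (fun t _ => hC t)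
    rw [norm_mul, norm_inv, Complex.norm_real, Real.norm_eq_abs, abs_of_pos (by positivity)]
    have h2 : |(k : ℝ) - (-(k : ℝ))| = 2 * k := by
      rw [sub_neg_eq_add, ← two_mul, abs_of_pos (by positivity)]
    rw [h2] at h1
    calc (2 * (k : ℝ))⁻¹ * ‖∫ t in (-(k : ℝ))..(k : ℝ), F t‖
        ≤ (2 * (k : ℝ))⁻¹ * (C * (2 * k)) := by gcongr
      _ = C := by field_simp

section mean

variable (ω : Ultrafilter ℕ)

theorem tendsto_wm {F : ℝ → ℂ} (hF : Good F) : Tendsto (wm F) (ω : Filter ℕ) (𝓝 (cm ω F)) := by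
  obtain ⟨C, hC⟩ := hF.bdd
  have h1 : ((ω.map (wm F) : Ultrafilter ℂ) : Filter ℂ) ≤ 𝓟 (Metric.closedBall (0 : ℂ) C) := by
    rw [le_principal_iff]
    rw [Ultrafilter.coe_map, mem_map]
    refine Filter.mem_of_superset Filter.univ_mem fun k _ => ?_
    simp only [Set.mem_preimage, Metric.mem_closedBall, dist_zero_right]
    exact norm_wm_le hC k
  obtain ⟨x, _, hx⟩ := (isCompact_closedBall (0 : ℂ) C).ultrafilter_le_nhds _ h1
  have h2 : Tendsto (wm F) (ω : Filter ℕ) (𝓝 x) := by
    rw [Ultrafilter.coe_map] at hx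
    exact hx
  exact tendsto_nhds_limUnder ⟨x, h2⟩

theorem wm_add {F G : ℝ → ℂ} (hF : Good F) (hG : Good G) (k : ℕ) :
    wm (fun t => F t + G t) k = wm F k + wm G k := by
  unfold wm
  rw [intervalIntegral.integral_add (hF.cont.intervalIntegrable _ _) (hG.cont.intervalIntegrable _ _),
    mul_add]

theorem wm_const_mul (F : ℝ → ℂ) (c : ℂ) (k : ℕ) :
    wm (fun t => c * F t) k = c * wm F k := by
  unfold wm
  rw [intervalIntegral.integral_const_mul]
  ring

theorem cm_add {F G : ℝ → ℂ} (hF : Good F) (hG : Good G) :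
    cm ω (fun t => F t + G t) = cm ω F + cm ω G := by
  refine tendsto_nhds_unique (tendsto_wm ω (hF.add hG)) ?_
  have h := (tendsto_wm ω hF).add (tendsto_wm ω hG)
  refine h.congr fun k => (wm_add hF hG k).symm

theorem cm_const_mul {F : ℝ → ℂ} (hF : Good F) (c : ℂ) :
    cm ω (fun t => c * F t) = c * cm ω F := by
  refine tendsto_nhds_unique (tendsto_wm ω (hF.const_mul c)) ?_
  have h := (tendsto_wm ω hF).const_mul c
  refine h.congr fun k => (wm_const_mul F c k).symm

theorem norm_cm_le {F : ℝ → ℂ} (hF : Good F) {C : ℝ} (hC : ∀ t, ‖F t‖ ≤ C) : ‖cm ω F‖ ≤ C :=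
  le_of_tendsto (tendsto_wm ω hF).norm (Filter.Eventually.of_forall fun k => norm_wm_le hC k)

variable {ω} (hω : (ω : Filter ℕ) ≤ atTop)
include hω

theorem eventually_pos : ∀ᶠ k : ℕ in (ω : Filter ℕ), 0 < k :=
  hω (eventually_gt_atTop 0)

theorem cm_const (c : ℂ) : cm ω (fun _ => c) = c := by
  refine tendsto_nhds_unique (tendsto_wm ω (good_const c)) ?_
  refine tendsto_const_nhds.congr' ?_
  filter_upwards [eventually_pos hω] with k hk
  have hk' : (k : ℝ) ≠ 0 := by exact_mod_cast hk.ne'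
  unfold wm
  rw [intervalIntegral.integral_const]
  simp only [sub_neg_eq_add, Complex.real_smul]
  push_cast
  have hk'' : (k : ℂ) ≠ 0 := by exact_mod_cast hk.ne'
  field_simp
  ring

theorem cm_re_le {F : ℝ → ℂ} (hF : Good F) {C : ℝ} (hC : ∀ t, (F t).re ≤ C) :
    (cm ω F).re ≤ C := by
  have h1 : Tendsto (fun k => (wm F k).re) (ω : Filter ℕ) (𝓝 (cm ω F).re) :=
    Complex.continuous_re.continuousAt.tendsto.comp (tendsto_wm ω hF)
  refine le_of_tendsto h1 ?_
  filter_upwards [eventually_pos hω] with k hk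
  have hk' : (0 : ℝ) < k := by exact_mod_cast hk
  unfold wm
  rw [← Complex.ofReal_inv, Complex.re_ofReal_mul]
  have h2 : (∫ t in (-(k : ℝ))..(k : ℝ), F t).re = ∫ t in (-(k : ℝ))..(k : ℝ), (F t).re := by
    have := Complex.reCLM.intervalIntegral_comp_comm (hF.cont.intervalIntegrable (μ := volume) (-(k : ℝ)) k)
    simpa using this.symm
  rw [h2]
  have h3 : ∫ t in (-(k : ℝ))..(k : ℝ), (F t).re ≤ ∫ t in (-(k : ℝ))..(k : ℝ), C := by
    refine intervalIntegral.integral_mono_on (by linarith)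
      ((Complex.continuous_re.comp hF.cont).intervalIntegrable _ _)
      (continuous_const.intervalIntegrable _ _) fun t _ => hC t
  rw [intervalIntegral.integral_const, sub_neg_eq_add, smul_eq_mul] at h3
  calc (2 * (k : ℝ))⁻¹ * ∫ t in (-(k : ℝ))..(k : ℝ), (F t).re
      ≤ (2 * (k : ℝ))⁻¹ * (((k : ℝ) + k) * C) := by gcongr
    _ = C := by field_simp; ring

/-- some point does at least as well as the mean, up to `γ` -/
theorem exists_re_ge {F : ℝ → ℂ} (hF : Good F) {γ : ℝ} (hγ : 0 < γ) :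
    ∃ t, (cm ω F).re - γ ≤ (F t).re := by
  by_contra hcon
  push Not at hcon
  have h := cm_re_le hω hF (C := (cm ω F).re - γ) (fun t => (hcon t).le)
  linarith

theorem cm_shift {F : ℝ → ℂ} (hF : Good F) (r : ℝ) :
    cm ω (fun t => F (r + t)) = cm ω F := by
  obtain ⟨C, hC⟩ := hF.bdd
  have hC0 : 0 ≤ C := (norm_nonneg _).trans (hC 0)
  refine tendsto_nhds_unique (tendsto_wm ω (hF.comp_add r)) ?_
  have hdiff : Tendsto (fun k : ℕ => wm (fun t => F (r + t)) k - wm F k) (ω : Filter ℕ) (𝓝 0) := by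
    have hbound : ∀ᶠ k : ℕ in (ω : Filter ℕ),
        ‖wm (fun t => F (r + t)) k - wm F k‖ ≤ (2 * |r| * C) * (1 / (2 * (k : ℝ))) := by
      filter_upwards [eventually_pos hω] with k hk
      have hk' : (0 : ℝ) < k := by exact_mod_cast hk
      unfold wm
      rw [← mul_sub, norm_mul, norm_inv, Complex.norm_real, Real.norm_eq_abs,
        abs_of_pos (by positivity)]
      have e : (∫ t in (-(k : ℝ))..(k : ℝ), F (r + t)) = ∫ t in (r + -(k : ℝ))..(r + k), F t := by
        rw [intervalIntegral.integral_comp_add_left]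
      rw [e]
      have hint : ∀ a b : ℝ, IntervalIntegrable F volume a b :=
        fun a b => hF.cont.intervalIntegrable a b
      have e2 : (∫ t in (r + -(k : ℝ))..(r + k), F t) - ∫ t in (-(k : ℝ))..(k : ℝ), F t =
          (∫ t in (k : ℝ)..(r + k), F t) - ∫ t in (-(k : ℝ))..(r + -(k : ℝ)), F t := by
        have a1 := intervalIntegral.integral_add_adjacent_intervals (hint (r + -(k : ℝ)) (-(k : ℝ)))
          (hint (-(k : ℝ)) k)
        have a2 := intervalIntegral.integral_add_adjacent_intervals (hint (r + -(k : ℝ)) k)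
          (hint k (r + k))
        have a3 := intervalIntegral.integral_symm (μ := volume) (f := F) (r + -(k : ℝ)) (-(k : ℝ))
        linear_combination -a2 - a1 + a3
      rw [e2]
      have h1 : ‖∫ t in (k : ℝ)..(r + k), F t‖ ≤ C * |r + k - k| :=
        intervalIntegral.norm_integral_le_of_norm_le_const (fun t _ => hC t)
      have h2 : ‖∫ t in (-(k : ℝ))..(r + -(k : ℝ)), F t‖ ≤ C * |r + -(k : ℝ) - -(k : ℝ)| :=
        intervalIntegral.norm_integral_le_of_norm_le_const (fun t _ => hC t)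
      have h3 : |r + k - k| = |r| := by congr 1; ring
      have h4 : |r + -(k : ℝ) - -(k : ℝ)| = |r| := by congr 1; ring
      rw [h3] at h1
      rw [h4] at h2
      calc (2 * (k : ℝ))⁻¹ * ‖(∫ t in (k : ℝ)..(r + k), F t) - ∫ t in (-(k : ℝ))..(r + -(k : ℝ)), F t‖
          ≤ (2 * (k : ℝ))⁻¹ * (C * |r| + C * |r|) := by
            gcongr
            exact (norm_sub_le _ _).trans (add_le_add h1 h2)
        _ = _ := by field_simp; ring
    have hlim : Tendsto (fun k : ℕ => (2 * |r| * C) * (1 / (2 * (k : ℝ)))) (ω : Filter ℕ) (𝓝 0) := by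
      have h1 : Tendsto (fun k : ℕ => 1 / (2 * (k : ℝ))) atTop (𝓝 0) := by
        have := tendsto_one_div_add_atTop_nhds_zero_nat (𝕜 := ℝ)
        refine tendsto_const_nhds.div_atTop ?_
        exact Tendsto.const_mul_atTop (by norm_num) tendsto_natCast_atTop_atTop
      have h2 := (h1.mono_left hω).const_mul (2 * |r| * C)
      simpa using h2
    exact squeeze_zero_norm' hbound hlim
  have := (tendsto_wm ω hF).add hdiff
  simp only [add_zero] at this
  refine this.congr fun k => ?_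
  ring

theorem cm_neg {F : ℝ → ℂ} (hF : Good F) : cm ω (fun t => F (-t)) = cm ω F := by
  refine tendsto_nhds_unique (tendsto_wm ω hF.comp_neg) ?_
  refine (tendsto_wm ω hF).congr fun k => ?_
  unfold wm
  rw [intervalIntegral.integral_comp_neg]
  simp

end mean

/-- comparison with the real mean of the prelude -/
theorem ultraMean_eq {ω : Ultrafilter ℕ} (hω : (ω : Filter ℕ) ≤ atTop) {g : ℝ → ℝ}
    (hg : Good (fun t => (g t : ℂ))) :
    ultraMean ω g = (cm ω (fun t => (g t : ℂ))).re := by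
  have h1 : Tendsto (fun k => (wm (fun t => (g t : ℂ)) k).re) (ω : Filter ℕ)
      (𝓝 (cm ω (fun t => (g t : ℂ))).re) :=
    Complex.continuous_re.continuousAt.tendsto.comp (tendsto_wm ω hg)
  have h2 : Tendsto (windowMean g) (ω : Filter ℕ) (𝓝 (cm ω (fun t => (g t : ℂ))).re) := by
    refine h1.congr' ?_
    filter_upwards [eventually_pos hω] with k hk
    have hk' : (0 : ℝ) < k := by exact_mod_cast hk
    unfold wm windowMean
    rw [← Complex.ofReal_inv, Complex.re_ofReal_mul]
    have h3 : (∫ t in (-(k : ℝ))..(k : ℝ), (g t : ℂ)).re = ∫ t in (-(k : ℝ))..(k : ℝ), g t := by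
      rw [intervalIntegral.integral_ofReal, Complex.ofReal_re]
    rw [h3, setAverage_eq, smul_eq_mul]
    have h4 : volume.real (Set.Icc (-(k : ℝ)) k) = 2 * k := by
      simp [Measure.real, Real.volume_Icc]
      ring
    rw [h4, MeasureTheory.integral_Icc_eq_integral_Ioc,
      intervalIntegral.integral_of_le (by linarith)]
  exact h2.limUnder_eq

end Crest.Agent.S0112Lib
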