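import Crest.Agent.S0112Lib.Ergodic

/-!
Smearing an element of the algebra along the flow with an integrable kernel whose Fourier
transform is a compactly supported bump.
-/

set_option autoImplicit false

open Filter MeasureTheory Topology
open scoped InnerProductSpace ComplexConjugate FourierTransform

namespace Crest.Agent.S0112Lib

open Crest.OpAlg

variable {H : Type*} [NormedAddCommGroup H] [InnerProductSpace ℂ H] [CompleteSpace H]

/-- `f` is the Fourier integral of the kernel `Φ` with time scale `θ`. -/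
structure Kernel (Φ : ℝ → ℂ) (θ : ℝ) (f : BCF) : Prop where
  cont : Continuous Φ
  integ : Integrable Φ
  rep : ∀ u, f u = ∫ y, Φ y * (LineCalculus.character (θ * y)) u

/-- the linear functional `g ↦ ⟪w, ψ(g) z⟫` -/
noncomputable def innerFunctional (D : LineCalculus H) (w z : H) : BCF →L[ℂ] ℂ :=
  LinearMap.mkContinuous
    { toFun := fun g => inner ℂ w (D.apply g z)
      map_add' := fun a b => by
        rw [map_add]
        change inner ℂ w (D.apply a z + D.apply b z) = _
        rw [inner_add_right]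
      map_smul' := fun c a => by
        rw [map_smul]
        change inner ℂ w (c • D.apply a z) = _
        rw [inner_smul_right]
        rfl }
    (‖w‖ * ‖z‖)
    (fun g => by
      change ‖inner ℂ w (D.apply g z)‖ ≤ _
      calc _ ≤ ‖w‖ * ‖D.apply g z‖ := norm_inner_le_norm _ _
        _ ≤ ‖w‖ * (‖g‖ * ‖z‖) := by gcongr; exact apply_norm_apply_le D g z
        _ = _ := by ring)

theorem innerFunctional_apply (D : LineCalculus H) (w z : H) (g : BCF) :
    innerFunctional D w z g = inner ℂ w (D.apply g z) := rfl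

section kernel

variable (D : LineCalculus H) {Φ : ℝ → ℂ} {θ : ℝ} {f : BCF} (hK : Kernel Φ θ f)

include hK

theorem integrable_kernel_mul {F : ℝ → ℂ} (hF : Good F) : Integrable fun y => Φ y * F (θ * y) := by
  obtain ⟨C, hC⟩ := hF.bdd
  refine Integrable.mono' (hK.integ.norm.mul_const C) ?_ ?_
  · exact (hK.cont.mul (hF.cont.comp (continuous_const.mul continuous_id))).aestronglyMeasurable
  · refine Eventually.of_forall fun y => ?_
    rw [norm_mul]
    exact mul_le_mul_of_nonneg_left (hC _) (norm_nonneg _)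

theorem rep_kernel_compact (w z₀ : H) (χ : BCF) (hχ : HasCompactSupport (χ : ℝ → ℂ)) :
    ∫ y, Φ y * inner ℂ w (D.wave (θ * y) (D.apply χ z₀)) = inner ℂ w (D.apply f (D.apply χ z₀)) := by
  set Y : ℝ → BCF := fun y => Φ y • (LineCalculus.character (θ * y) * χ) with hY
  have hYcont : Continuous Y :=
    hK.cont.smul ((continuous_character_mul χ hχ).comp (continuous_const.mul continuous_id))
  have hYint : Integrable Y := by
    refine Integrable.mono' (hK.integ.norm.mul_const ‖χ‖) hYcont.aestronglyMeasurable ?_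
    refine Eventually.of_forall fun y => ?_
    rw [hY]
    simp only
    rw [norm_smul]
    refine mul_le_mul_of_nonneg_left ?_ (norm_nonneg _)
    calc _ ≤ ‖LineCalculus.character (θ * y)‖ * ‖χ‖ := norm_mul_le _ _
      _ ≤ 1 * ‖χ‖ := by gcongr; exact norm_character_le _
      _ = ‖χ‖ := one_mul _
  have hI : ∫ y, Y y = f * χ := by
    ext u
    have h1 := (BoundedContinuousFunction.evalCLM ℂ u).integral_comp_comm hYint
    have h2 : (BoundedContinuousFunction.evalCLM ℂ u) (∫ y, Y y) = (∫ y, Y y) u := rfl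
    rw [← h2, ← h1, BoundedContinuousFunction.mul_apply, hK.rep, ← MeasureTheory.integral_mul_const]
    refine integral_congr_ae (Eventually.of_forall fun y => ?_)
    change (Y y) u = _
    rw [hY]
    simp only [BoundedContinuousFunction.coe_smul, BoundedContinuousFunction.coe_mul, Pi.mul_apply,
      smul_eq_mul]
    ring
  have h3 := (innerFunctional D w z₀).integral_comp_comm hYint
  rw [hI, innerFunctional_apply] at h3
  rw [apply_mul_apply, ← h3]
  refine integral_congr_ae (Eventually.of_forall fun y => ?_)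
  simp only [hY]
  rw [map_smul, innerFunctional_apply, smul_eq_mul, wave_def, apply_mul_apply]

theorem integrable_inner_wave (w z : H) :
    Integrable fun y => Φ y * inner ℂ w (D.wave (θ * y) z) := by
  have hgood : Good fun t : ℝ => inner ℂ w (D.wave t z) := by
    refine ⟨continuous_const.inner (continuous_wave D z), ‖w‖ * ‖z‖, fun t => ?_⟩
    refine (norm_inner_le_norm _ _).trans ?_
    rw [norm_wave]
  exact integrable_kernel_mul hK hgood

theorem rep_kernel (w z : H) :
    ∫ y, Φ y * inner ℂ w (D.wave (θ * y) z) = inner ℂ w (D.apply f z) := by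
  refine eq_of_forall_dist_le fun ε hε => ?_
  set κ := ∫ y, ‖Φ y‖ with hκ
  have hκ0 : 0 ≤ κ := integral_nonneg fun y => norm_nonneg _
  set C := κ * ‖w‖ + ‖w‖ * ‖f‖ with hC
  have hC0 : 0 ≤ C := by positivity
  obtain ⟨χ, hχ, hχz⟩ := D.window z (ε / (C + 1)) (by positivity)
  have hz' : ‖z - D.apply χ z‖ < ε / (C + 1) := by rwa [norm_sub_rev]
  have h1 := rep_kernel_compact D hK w z χ hχ
  rw [dist_eq_norm]
  have e : (∫ y, Φ y * inner ℂ w (D.wave (θ * y) z)) - inner ℂ w (D.apply f z) =
      (∫ y, Φ y * inner ℂ w (D.wave (θ * y) (z - D.apply χ z)))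
        - inner ℂ w (D.apply f (z - D.apply χ z)) := by
    have e1 : ∀ y, Φ y * inner ℂ w (D.wave (θ * y) (z - D.apply χ z)) =
        Φ y * inner ℂ w (D.wave (θ * y) z) - Φ y * inner ℂ w (D.wave (θ * y) (D.apply χ z)) := by
      intro y
      rw [map_sub, inner_sub_right, mul_sub]
    simp_rw [e1]
    rw [integral_sub (integrable_inner_wave D hK w z) (integrable_inner_wave D hK w _), h1, map_sub,
      inner_sub_right]
    ring
  rw [e]
  set z' := z - D.apply χ z with hz''
  have h2 : ‖∫ y, Φ y * inner ℂ w (D.wave (θ * y) z')‖ ≤ κ * (‖w‖ * ‖z'‖) := by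
    refine (norm_integral_le_integral_norm _).trans ?_
    have : ∀ y, ‖Φ y * inner ℂ w (D.wave (θ * y) z')‖ ≤ ‖Φ y‖ * (‖w‖ * ‖z'‖) := by
      intro y
      rw [norm_mul]
      refine mul_le_mul_of_nonneg_left ?_ (norm_nonneg _)
      refine (norm_inner_le_norm _ _).trans ?_
      rw [norm_wave]
    refine (integral_mono_of_nonneg (Eventually.of_forall fun y => norm_nonneg _)
      (hK.integ.norm.mul_const _) (Eventually.of_forall this)).trans ?_
    rw [integral_mul_const]
  have h3 : ‖inner ℂ w (D.apply f z')‖ ≤ ‖w‖ * (‖f‖ * ‖z'‖) := by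
    refine (norm_inner_le_norm _ _).trans ?_
    gcongr
    exact apply_norm_apply_le D f z'
  calc _ ≤ ‖∫ y, Φ y * inner ℂ w (D.wave (θ * y) z')‖ + ‖inner ℂ w (D.apply f z')‖ := norm_sub_le _ _
    _ ≤ κ * (‖w‖ * ‖z'‖) + ‖w‖ * (‖f‖ * ‖z'‖) := add_le_add h2 h3
    _ = C * ‖z'‖ := by rw [hC]; ring
    _ ≤ C * (ε / (C + 1)) := by gcongr
    _ ≤ ε := by
      rw [mul_div_assoc', div_le_iff₀ (by positivity)]
      nlinarith

end kernel

/-- The smeared element of the algebra. -/
theorem exists_smear (S : ModularDatum H) {Φ : ℝ → ℂ} {θ : ℝ} {f : BCF} (hK : Kernel Φ θ f)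
    {x : H →L[ℂ] H} (hx : x ∈ S.M) :
    ∃ v : H →L[ℂ] H, v ∈ S.M ∧ ‖v‖ ≤ (∫ y, ‖Φ y‖) * ‖x‖ ∧ v S.vac = S.D.apply f (x S.vac) := by
  set L : (ℝ → ℂ) → ℂ := fun F => ∫ y, Φ y * F (θ * y) with hL
  have hκ0 : 0 ≤ ∫ y, ‖Φ y‖ := integral_nonneg fun y => norm_nonneg _
  obtain ⟨A, hA, hAn⟩ := exists_op (H := H) L (∫ y, ‖Φ y‖) hκ0
    (fun F G hF hG => by
      simp only [hL, mul_add]
      exact integral_add (integrable_kernel_mul hK hF) (integrable_kernel_mul hK hG))
    (fun c F hF => by
      simp only [hL]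
      rw [← integral_const_mul]
      refine integral_congr_ae (Eventually.of_forall fun y => ?_)
      simp only
      ring)
    (fun F C hF hC => by
      simp only [hL]
      refine (norm_integral_le_integral_norm _).trans ?_
      have : ∀ y, ‖Φ y * F (θ * y)‖ ≤ ‖Φ y‖ * C := by
        intro y
        rw [norm_mul]
        exact mul_le_mul_of_nonneg_left (hC _) (norm_nonneg _)
      refine (integral_mono_of_nonneg (Eventually.of_forall fun y => norm_nonneg _)
        (hK.integ.norm.mul_const _) (Eventually.of_forall this)).trans ?_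
      rw [integral_mul_const])
    (fun t => S.flow t x) ‖x‖ (norm_nonneg _) (fun t => norm_flow_le S t x)
    (fun w₁ w₂ => continuous_inner_flow S x w₁ w₂)
  refine ⟨A, op_mem S.M L (fun t => S.flow t x) (fun t => flow_mem' S t hx) A hA, hAn, ?_⟩
  refine ext_inner_left ℂ fun w => ?_
  rw [hA]
  simp only [hL]
  rw [← rep_kernel S.D hK w (x S.vac)]
  refine integral_congr_ae (Eventually.of_forall fun y => ?_)
  simp only
  rw [flow_vac]

/-- The bump function and its kernel. -/
theorem exists_bump_kernel : ∃ κ₀ : ℝ, 0 ≤ κ₀ ∧ ∀ s δ : ℝ, 0 < δ →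
    ∃ (f : BCF) (Φ : ℝ → ℂ) (θ : ℝ), Kernel Φ θ f ∧ (∫ y, ‖Φ y‖) ≤ κ₀ ∧
      HasCompactSupport (f : ℝ → ℂ) ∧ (∀ u ∈ Set.Icc (s - δ) (s + δ), f u = 1) ∧
      (∀ u, u ∉ Set.Icc (s - 2 * δ) (s + 2 * δ) → f u = 0) ∧ ‖f‖ ≤ 1 := by
  let b : ContDiffBump (0 : ℝ) := ⟨1, 2, by norm_num, by norm_num⟩
  let g : ℝ → ℂ := fun w => ((b w : ℝ) : ℂ)
  have hgs : ContDiff ℝ (⊤ : ℕ∞) g := Complex.ofRealCLM.contDiff.comp (b.contDiff)
  have hgc : HasCompactSupport g := by
    have h := b.hasCompactSupport
    exact h.comp_left (g := fun x : ℝ => (x : ℂ)) (by simp)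
  let gS := hgc.toSchwartzMap hgs
  let G : ℝ → ℂ := 𝓕 g
  have hG : G = (𝓕 gS : SchwartzMap ℝ ℂ) := rfl
  have hGi : Integrable G := by rw [hG]; exact (𝓕 gS).integrable
  have hGc : Continuous G := by rw [hG]; exact (𝓕 gS).continuous
  have hinv : ∀ w, g w = ∫ y, Complex.exp ((↑(2 * Real.pi * (y * w)) * Complex.I)) • G y := by
    intro w
    have h1 := congrFun (hgs.continuous.fourierInv_fourier_eq gS.integrable hGi) w
    rw [Real.fourierInv_eq'] at h1
    rw [← h1]
    refine integral_congr_ae (Eventually.of_forall fun y => ?_)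
    have e : inner ℝ y w = y * w := by
      rw [RCLike.inner_apply, conj_trivial, mul_comm]
    change Complex.exp (↑(2 * Real.pi * inner ℝ y w) * Complex.I) • 𝓕 g y = _
    rw [e]
  refine ⟨∫ y, ‖G y‖, integral_nonneg fun y => norm_nonneg _, fun s δ hδ => ?_⟩
  have hb0 : ∀ w, 0 ≤ b w := fun w => b.nonneg
  have hb1 : ∀ w, b w ≤ 1 := fun w => b.le_one
  have hnormg : ∀ w, ‖g w‖ ≤ 1 := by
    intro w
    change ‖((b w : ℝ) : ℂ)‖ ≤ 1
    rw [Complex.norm_real, Real.norm_eq_abs, abs_of_nonneg (hb0 w)]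
    exact hb1 w
  have hcontf : Continuous fun u : ℝ => g ((u - s) / δ) :=
    hgs.continuous.comp ((continuous_id.sub continuous_const).div_const δ)
  let f : BCF := BoundedContinuousFunction.ofNormedAddCommGroup (fun u : ℝ => g ((u - s) / δ)) hcontf 1
    (fun u => hnormg _)
  have hfa : ∀ u, f u = g ((u - s) / δ) := fun u => rfl
  have hzero : ∀ u, u ∉ Set.Icc (s - 2 * δ) (s + 2 * δ) → f u = 0 := by
    intro u hu
    rw [hfa]
    have h2 : (2 : ℝ) ≤ dist ((u - s) / δ) 0 := by
      rw [Real.dist_eq, sub_zero, abs_div, abs_of_pos hδ, le_div_iff₀ hδ]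
      by_contra hcon
      push Not at hcon
      apply hu
      have := abs_lt.1 hcon
      constructor <;> linarith [this.1, this.2]
    change ((b ((u - s) / δ) : ℝ) : ℂ) = 0
    have h3 : b ((u - s) / δ) = 0 := b.zero_of_le_dist h2
    rw [h3]
    simp
  let Φ : ℝ → ℂ := fun y => Complex.exp (((-(2 * Real.pi * y * s / δ) : ℝ) : ℂ) * Complex.I) * G y
  have hnormΦ : ∀ y, ‖Φ y‖ = ‖G y‖ := by
    intro y
    change ‖Complex.exp (((-(2 * Real.pi * y * s / δ) : ℝ) : ℂ) * Complex.I) * G y‖ = _
    rw [norm_mul, Complex.norm_exp_ofReal_mul_I, one_mul]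
  have hΦc : Continuous Φ := by
    refine Continuous.mul ?_ hGc
    fun_prop
  refine ⟨f, Φ, 2 * Real.pi / δ, ⟨hΦc, ?_, ?_⟩, ?_, ?_, ?_, hzero, ?_⟩
  · refine Integrable.mono' hGi.norm hΦc.aestronglyMeasurable ?_
    exact Eventually.of_forall fun y => (hnormΦ y).le
  · intro u
    rw [hfa, hinv]
    refine integral_congr_ae (Eventually.of_forall fun y => ?_)
    change Complex.exp (↑(2 * Real.pi * (y * ((u - s) / δ))) * Complex.I) • G y =
      Complex.exp (((-(2 * Real.pi * y * s / δ) : ℝ) : ℂ) * Complex.I) * G y *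
        (LineCalculus.character (2 * Real.pi / δ * y)) u
    rw [character_apply, smul_eq_mul]
    have hexp : Complex.exp (↑(2 * Real.pi * (y * ((u - s) / δ))) * Complex.I) =
        Complex.exp (((-(2 * Real.pi * y * s / δ) : ℝ) : ℂ) * Complex.I) *
          Complex.exp (Complex.I * ↑(2 * Real.pi / δ * y * u)) := by
      rw [← Complex.exp_add]
      congr 1
      push_cast
      have hδ' : (δ : ℂ) ≠ 0 := by exact_mod_cast hδ.ne'
      field_simp
      ring
    rw [hexp]
    ring
  · simp_rw [hnormΦ]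
    exact le_rfl
  · refine HasCompactSupport.intro (isCompact_Icc (a := s - 2 * δ) (b := s + 2 * δ)) ?_
    exact fun u hu => hzero u hu
  · intro u hu
    rw [hfa]
    change ((b ((u - s) / δ) : ℝ) : ℂ) = 1
    have h1 : (u - s) / δ ∈ Metric.closedBall (0 : ℝ) 1 := by
      rw [Metric.mem_closedBall, Real.dist_eq, sub_zero, abs_div, abs_of_pos hδ, div_le_one hδ,
        abs_le]
      exact ⟨by linarith [hu.1], by linarith [hu.2]⟩
    have h2 : b ((u - s) / δ) = 1 := b.one_of_mem_closedBall h1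
    rw [h2]
    simp
  · exact BoundedContinuousFunction.norm_ofNormedAddCommGroup_le hcontf zero_le_one _

end Crest.Agent.S0112Lib
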