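import Crest.Agent.S0112Lib.Smear

/-!
Truncation of an element `V` of the algebra: `x = V (1 + V⋆V/K²)⁻¹`.
-/

set_option autoImplicit false

open Filter MeasureTheory Topology
open scoped InnerProductSpace ComplexConjugate

namespace Crest.Agent.S0112Lib

open Crest.OpAlg

variable {H : Type*} [NormedAddCommGroup H] [InnerProductSpace ℂ H] [CompleteSpace H]

theorem smul_mem' (M : VonNeumannAlgebra H) (c : ℂ) {x : H →L[ℂ] H} (hx : x ∈ M) : c • x ∈ M :=
  Subalgebra.smul_mem M.toStarSubalgebra.toSubalgebra hx c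

theorem inverse_mem (M : VonNeumannAlgebra H) {R P : H →L[ℂ] H} (hR : R ∈ M) (h1 : R * P = 1)
    (h2 : P * R = 1) : P ∈ M := by
  have hc := M.centralizer_centralizer
  have : P ∈ Set.centralizer (Set.centralizer (M : Set (H →L[ℂ] H))) := by
    rw [Set.mem_centralizer_iff]
    intro b hb
    rw [Set.mem_centralizer_iff] at hb
    have e := hb R hR
    calc b * P = (P * R) * (b * P) := by rw [h2, one_mul]
      _ = P * (R * b) * P := by noncomm_ring
      _ = P * (b * R) * P := by rw [e]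
      _ = P * b * (R * P) := by noncomm_ring
      _ = P * b := by rw [h1, mul_one]
  rw [hc] at this
  exact this

theorem norm_sq_star_apply (U : H →L[ℂ] H) (u : H) :
    ‖U u‖ ^ 2 = (inner ℂ u ((star U * U) u)).re := by
  have h : inner ℂ u ((star U * U) u) = inner ℂ (U u) (U u) := by
    change inner ℂ u (star U (U u)) = _
    rw [ContinuousLinearMap.star_eq_adjoint, ContinuousLinearMap.adjoint_inner_right]
  rw [h, inner_self_eq_norm_sq_to_K]
  norm_cast

/-- the key operator inequality -/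
theorem norm_apply_inverse_le (U P : H →L[ℂ] H) (h1 : (1 + star U * U) * P = 1) (z : H) :
    ‖U (P z)‖ ≤ (1 / 2) * ‖z‖ := by
  set u := P z with hu
  set W := star U * U with hW
  have hz : z = u + W u := by
    have := congrArg (fun A : H →L[ℂ] H => A z) h1
    simp only [ContinuousLinearMap.add_apply, ContinuousLinearMap.mul_apply,
      ContinuousLinearMap.one_apply] at this
    rw [← this]
  have hb := norm_sq_star_apply U u
  rw [← hW] at hb
  have e1 : ‖z‖ ^ 2 = ‖u‖ ^ 2 + 2 * (inner ℂ u (W u)).re + ‖W u‖ ^ 2 := by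
    rw [hz]
    have := norm_add_sq (𝕜 := ℂ) u (W u)
    simpa using this
  have e2 : 0 ≤ ‖u‖ ^ 2 - 2 * (inner ℂ u (W u)).re + ‖W u‖ ^ 2 := by
    have := norm_sub_sq (𝕜 := ℂ) u (W u)
    have h3 : 0 ≤ ‖u - W u‖ ^ 2 := by positivity
    rw [this] at h3
    simpa using h3
  have e3 : ‖U u‖ ^ 2 ≤ ((1 / 2) * ‖z‖) ^ 2 := by
    rw [mul_pow, e1, hb]
    norm_num
    linarith
  exact (pow_le_pow_iff_left₀ (norm_nonneg _) (by positivity) two_ne_zero).1 e3

/-- truncation -/
theorem exists_trunc (M : VonNeumannAlgebra H) {V : H →L[ℂ] H} (hV : V ∈ M) {K : ℝ} (hK : 0 < K)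
    (ξ : H) :
    ∃ x : H →L[ℂ] H, x ∈ M ∧ ‖x‖ ≤ K / 2 ∧ ‖V ξ - x ξ‖ ≤ ‖star V (V ξ)‖ / (2 * K) := by
  have hK' : (K : ℂ) ≠ 0 := by exact_mod_cast hK.ne'
  set U : H →L[ℂ] H := ((K : ℂ)⁻¹) • V with hU
  set R : H →L[ℂ] H := 1 + star U * U with hR
  have hle : (1 : H →L[ℂ] H) ≤ R := by
    rw [hR]
    exact le_add_of_nonneg_right (star_mul_self_nonneg U)
  have hunit : IsUnit R := CStarAlgebra.isUnit_of_le (1 : H →L[ℂ] H) hle
  obtain ⟨r, hr⟩ := hunit
  set P : H →L[ℂ] H := ((r⁻¹ : (H →L[ℂ] H)ˣ) : H →L[ℂ] H) with hP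
  have hRP : R * P = 1 := by rw [← hr]; exact r.mul_inv
  have hPR : P * R = 1 := by rw [← hr]; exact r.inv_mul
  have hUM : U ∈ M := by
    rw [hU]
    exact smul_mem' M _ hV
  have hRM : R ∈ M := by
    rw [hR]
    exact add_mem (one_mem _) (mul_mem (star_mem hUM) hUM)
  have hPM : P ∈ M := inverse_mem M hRM hRP hPR
  have hbound : ∀ z : H, ‖(V * P) z‖ ≤ (K / 2) * ‖z‖ := by
    intro z
    have h1 := norm_apply_inverse_le U P hRP z
    have h2 : (V * P) z = (K : ℂ) • U (P z) := by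
      rw [hU]
      change V (P z) = (K : ℂ) • ((K : ℂ)⁻¹ • V (P z))
      rw [smul_smul, mul_inv_cancel₀ hK', one_smul]
    rw [h2, norm_smul, Complex.norm_real, Real.norm_eq_abs, abs_of_pos hK]
    calc K * ‖U (P z)‖ ≤ K * ((1 / 2) * ‖z‖) := by gcongr
      _ = _ := by ring
  refine ⟨V * P, mul_mem hV hPM, ?_, ?_⟩
  · exact ContinuousLinearMap.opNorm_le_bound _ (by positivity) hbound
  · -- `1 - P = P W`
    set W := star U * U with hW
    have h1 : P * W = 1 - P := by
      have : P * (1 + W) = 1 := hPR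
      rw [mul_add, mul_one] at this
      rw [← this]
      abel
    have h2 : V ξ - (V * P) ξ = (V * P) (W ξ) := by
      have h3 : (V * P) (W ξ) = V ((P * W) ξ) := rfl
      rw [h3, h1]
      simp
    have h4 : W ξ = ((K : ℂ)⁻¹ * (K : ℂ)⁻¹) • star V (V ξ) := by
      rw [hW, hU, star_smul]
      change ((star ((K : ℂ)⁻¹) • star V) (((K : ℂ)⁻¹ • V) ξ)) = _
      have : star ((K : ℂ)⁻¹) = (K : ℂ)⁻¹ := by simp
      rw [this]
      simp only [ContinuousLinearMap.smul_apply, map_smul, smul_smul]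
    rw [h2, h4]
    refine (hbound _).trans ?_
    rw [norm_smul]
    have h5 : ‖((K : ℂ)⁻¹ * (K : ℂ)⁻¹)‖ = K⁻¹ * K⁻¹ := by
      rw [norm_mul, norm_inv, Complex.norm_real, Real.norm_eq_abs, abs_of_pos hK]
    rw [h5]
    apply le_of_eq
    field_simp

end Crest.Agent.S0112Lib
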