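import Crest.Agent.S0112Lib.Calc

/-!
From the Tomita condition: the vacuum is fixed by the unitaries `wave t`; approximation of a
band-limited vector by `a ξ` with control of `a⋆ ξ`.
-/

set_option autoImplicit false

open Filter MeasureTheory Topology
open scoped InnerProductSpace ComplexConjugate

namespace Crest.Agent.S0112Lib

open Crest.OpAlg

variable {H : Type*} [NormedAddCommGroup H] [InnerProductSpace ℂ H] [CompleteSpace H]

/-- a bounded continuous function from a compactly supported continuous one -/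
noncomputable def csBCF (g : ℝ → ℂ) (hg : Continuous g) (hc : HasCompactSupport g) : BCF :=
  BoundedContinuousFunction.ofNormedAddCommGroup g hg
    (Classical.choose (hg.bounded_above_of_compact_support hc))
    (Classical.choose_spec (hg.bounded_above_of_compact_support hc))

@[simp] theorem csBCF_apply (g : ℝ → ℂ) (hg : Continuous g) (hc : HasCompactSupport g) (u : ℝ) :
    csBCF g hg hc u = g u := rfl

/-- the square root of the exponential as a complex function -/
noncomputable def eHalf (u : ℝ) : ℂ := ((Real.exp (u / 2) : ℝ) : ℂ)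

theorem continuous_eHalf : Continuous eHalf := by
  unfold eHalf
  fun_prop

theorem eHalf_mul_self (u : ℝ) : eHalf u * eHalf u = ((Real.exp u : ℝ) : ℂ) := by
  unfold eHalf
  rw [← Complex.ofReal_mul, ← Real.exp_add]
  congr 2
  ring

/-- `κ(u) e^{u/2}` for a compactly supported `κ` -/
noncomputable def mulE (κ : BCF) (hκ : HasCompactSupport (κ : ℝ → ℂ)) : BCF :=
  csBCF (fun u => κ u * eHalf u) (κ.continuous.mul continuous_eHalf) (hκ.mul_right)

@[simp] theorem mulE_apply (κ : BCF) (hκ : HasCompactSupport (κ : ℝ → ℂ)) (u : ℝ) :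
    mulE κ hκ u = κ u * eHalf u := rfl

theorem hasCompactSupport_mulE (κ : BCF) (hκ : HasCompactSupport (κ : ℝ → ℂ)) :
    HasCompactSupport (mulE κ hκ : ℝ → ℂ) := hκ.mul_right

theorem hasCompactSupport_star (κ : BCF) (hκ : HasCompactSupport (κ : ℝ → ℂ)) :
    HasCompactSupport ((star κ : BCF) : ℝ → ℂ) := by
  refine hκ.mono fun u hu => ?_
  simp only [Function.mem_support] at hu ⊢
  intro h0
  apply hu
  rw [BoundedContinuousFunction.star_apply, h0]
  simp

theorem star_mulE (κ : BCF) (hκ : HasCompactSupport (κ : ℝ → ℂ))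
    (hκ' : HasCompactSupport ((star κ : BCF) : ℝ → ℂ)) :
    star (mulE (star κ) hκ') = mulE κ hκ := by
  ext u
  rw [BoundedContinuousFunction.star_apply, mulE_apply, mulE_apply,
    BoundedContinuousFunction.star_apply, star_mul', star_star]
  congr 1
  unfold eHalf
  exact Complex.conj_ofReal _

/-- antiunitarity of `J` -/
theorem inner_semilinear_isometry (J : H ≃ₗᵢ⋆[ℂ] H) (x y : H) :
    inner ℂ (J x) (J y) = inner ℂ y x := by
  rw [inner_eq_sum_norm_sq_div_four (𝕜 := ℂ) (J x) (J y), inner_eq_sum_norm_sq_div_four (𝕜 := ℂ) y x]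
  have h1 : ‖J x + J y‖ = ‖y + x‖ := by rw [← map_add, LinearIsometryEquiv.norm_map, add_comm]
  have h2 : ‖J x - J y‖ = ‖y - x‖ := by
    rw [← map_sub, LinearIsometryEquiv.norm_map, norm_sub_rev]
  have h3 : ‖J x - (RCLike.I : ℂ) • J y‖ = ‖y - (RCLike.I : ℂ) • x‖ := by
    have : J x - (RCLike.I : ℂ) • J y = J (x + (RCLike.I : ℂ) • y) := by
      rw [map_add, map_smulₛₗ]
      simp [sub_eq_add_neg]
    rw [this, LinearIsometryEquiv.norm_map]
    have e : x + (RCLike.I : ℂ) • y = (RCLike.I : ℂ) • (y - (RCLike.I : ℂ) • x) := by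
      rw [smul_sub, smul_smul]
      simp [add_comm]
    rw [e, norm_smul]
    simp
  have h4 : ‖J x + (RCLike.I : ℂ) • J y‖ = ‖y + (RCLike.I : ℂ) • x‖ := by
    have : J x + (RCLike.I : ℂ) • J y = J (x - (RCLike.I : ℂ) • y) := by
      rw [map_sub, map_smulₛₗ]
      simp [sub_eq_add_neg]
    rw [this, LinearIsometryEquiv.norm_map]
    have e : x - (RCLike.I : ℂ) • y = (-(RCLike.I : ℂ)) • (y + (RCLike.I : ℂ) • x) := by
      rw [smul_add, smul_smul]
      simp [sub_eq_add_neg, add_comm]
    rw [e, norm_smul]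
    simp
  rw [h1, h2, h3, h4]

section datum

variable (S : ModularDatum H)

theorem vac_pair_mem (a : H →L[ℂ] H) (ha : a ∈ S.M) :
    ((a S.vac, star a S.vac) : H × H) ∈
      closure (Set.range fun a : S.M => ((a : H →L[ℂ] H) S.vac, star (a : H →L[ℂ] H) S.vac)) :=
  subset_closure ⟨⟨a, ha⟩, rfl⟩

theorem halfExp_of_mem_closure {p : H × H}
    (hp : p ∈ closure (Set.range fun a : S.M =>
      ((a : H →L[ℂ] H) S.vac, star (a : H →L[ℂ] H) S.vac))) :
    S.D.HalfExp p.1 (S.J p.2) := by
  rw [S.tomita] at hp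
  exact hp

theorem mem_closure_of_halfExp {x y : H} (h : S.D.HalfExp x y) :
    ((x, S.J y) : H × H) ∈ closure (Set.range fun a : S.M =>
      ((a : H →L[ℂ] H) S.vac, star (a : H →L[ℂ] H) S.vac)) := by
  rw [S.tomita]
  change S.D.HalfExp x (S.J (S.J y))
  rw [S.J_J]
  exact h

theorem halfExp_vac : S.D.HalfExp S.vac (S.J S.vac) := by
  have h1 := vac_pair_mem S 1 (one_mem _)
  have h2 := halfExp_of_mem_closure S h1
  simpa using h2

theorem inner_of_mem_closure {p : H × H}
    (hp : p ∈ closure (Set.range fun a : S.M =>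
      ((a : H →L[ℂ] H) S.vac, star (a : H →L[ℂ] H) S.vac))) :
    inner ℂ p.2 S.vac = inner ℂ S.vac p.1 := by
  have hclosed : IsClosed {p : H × H | inner ℂ p.2 S.vac = inner ℂ S.vac p.1} :=
    isClosed_eq (by fun_prop) (by fun_prop)
  refine closure_minimal ?_ hclosed hp
  rintro _ ⟨a, rfl⟩
  show inner ℂ (star (a : H →L[ℂ] H) S.vac) S.vac = inner ℂ S.vac ((a : H →L[ℂ] H) S.vac)
  rw [ContinuousLinearMap.star_eq_adjoint, ContinuousLinearMap.adjoint_inner_left]

/-- `ψ(κ) z` is in the domain of `exp(D/2)` with image `ψ(κ e^{u/2}) z`. -/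
theorem halfExp_apply (κ : BCF) (hκ : HasCompactSupport (κ : ℝ → ℂ)) (z : H) :
    S.D.HalfExp (S.D.apply κ z) (S.D.apply (mulE κ hκ) z) := by
  intro f g hfg
  rw [apply_mul_apply, apply_mul_apply]
  congr 2
  ext u
  rw [BoundedContinuousFunction.mul_apply, BoundedContinuousFunction.mul_apply, mulE_apply, hfg]
  simp only [Complex.ofReal_exp]
  unfold eHalf
  push_cast
  ring

theorem apply_mulE_J_vac (κ : BCF) (hκ : HasCompactSupport (κ : ℝ → ℂ)) :
    S.D.apply (star (mulE κ hκ)) (S.J S.vac) = S.D.apply (star κ) S.vac := by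
  refine ext_inner_right ℂ fun z => ?_
  rw [← inner_apply, ← inner_apply]
  have h1 := mem_closure_of_halfExp S (halfExp_apply S κ hκ z)
  have h2 := inner_of_mem_closure S h1
  simp only at h2
  rw [← h2]
  have h3 := inner_semilinear_isometry S.J (S.D.apply (mulE κ hκ) z) (S.J S.vac)
  rw [S.J_J] at h3
  rw [h3]

/-- multiplication by the exponential -/
noncomputable def mulEE (κ : BCF) (hκ : HasCompactSupport (κ : ℝ → ℂ)) : BCF :=
  csBCF (fun u => κ u * ((Real.exp u : ℝ) : ℂ))
    (κ.continuous.mul (Complex.continuous_ofReal.comp Real.continuous_exp)) (hκ.mul_right)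

@[simp] theorem mulEE_apply (κ : BCF) (hκ : HasCompactSupport (κ : ℝ → ℂ)) (u : ℝ) :
    mulEE κ hκ u = κ u * ((Real.exp u : ℝ) : ℂ) := rfl

theorem apply_mulEE_vac (κ : BCF) (hκ : HasCompactSupport (κ : ℝ → ℂ)) :
    S.D.apply (mulEE κ hκ) S.vac = S.D.apply κ S.vac := by
  have h1 := apply_mulE_J_vac S (star κ) (hasCompactSupport_star κ hκ)
  rw [star_mulE κ hκ, star_star] at h1
  have h2 := halfExp_vac S (mulE κ hκ) (mulEE κ hκ) (fun u => by
    rw [mulEE_apply, mulE_apply, mul_assoc]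
    change κ u * ((Real.exp u : ℝ) : ℂ) = κ u * (eHalf u * eHalf u)
    rw [eHalf_mul_self])
  rw [← h2]
  exact h1

end datum

/-- the quotient `(e^{itu} - 1)/(e^u - 1)`, continuously extended -/
noncomputable def quot (t : ℝ) (u : ℝ) : ℂ :=
  dslope (fun u : ℝ => Complex.exp (Complex.I * ((t * u : ℝ) : ℂ))) 0 u /
    dslope (fun u : ℝ => ((Real.exp u : ℝ) : ℂ)) 0 u

theorem dslope_exp_ne_zero (u : ℝ) :
    dslope (fun u : ℝ => ((Real.exp u : ℝ) : ℂ)) 0 u ≠ 0 := by
  by_cases hu : u = 0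
  · subst hu
    rw [dslope_same]
    have h : HasDerivAt (fun u : ℝ => ((Real.exp u : ℝ) : ℂ)) ((Real.exp 0 : ℝ) : ℂ) 0 :=
      (Real.hasDerivAt_exp 0).ofReal_comp
    rw [h.deriv]
    simp
  · rw [dslope_of_ne _ hu, slope_def_module]
    simp only [sub_zero, Real.exp_zero, Complex.ofReal_one, ne_eq, smul_eq_zero, inv_eq_zero,
      not_or]
    refine ⟨hu, ?_⟩
    rw [sub_eq_zero]
    intro h
    apply hu
    have : Real.exp u = 1 := by exact_mod_cast h
    exact Real.exp_eq_one_iff u |>.1 this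

theorem continuous_quot (t : ℝ) : Continuous (quot t) := by
  have h1 : Continuous (dslope (fun u : ℝ => Complex.exp (Complex.I * ((t * u : ℝ) : ℂ))) 0) := by
    rw [← continuousOn_univ, continuousOn_dslope Filter.univ_mem]
    refine ⟨by fun_prop, ?_⟩
    have : Differentiable ℝ (fun u : ℝ => Complex.exp (Complex.I * ((t * u : ℝ) : ℂ))) := by
      intro u
      apply DifferentiableAt.cexp
      apply DifferentiableAt.const_mul
      exact (Complex.ofRealCLM.differentiableAt).comp u ((differentiableAt_id).const_mul t)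
    exact this 0
  have h2 : Continuous (dslope (fun u : ℝ => ((Real.exp u : ℝ) : ℂ)) 0) := by
    rw [← continuousOn_univ, continuousOn_dslope Filter.univ_mem]
    refine ⟨by fun_prop, ?_⟩
    exact ((Real.hasDerivAt_exp 0).ofReal_comp).differentiableAt
  exact h1.div h2 dslope_exp_ne_zero

theorem quot_mul (t u : ℝ) :
    quot t u * (((Real.exp u : ℝ) : ℂ) - 1) = Complex.exp (Complex.I * ((t * u : ℝ) : ℂ)) - 1 := by
  have h1 := sub_smul_dslope (fun u : ℝ => Complex.exp (Complex.I * ((t * u : ℝ) : ℂ))) 0 u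
  have h2 := sub_smul_dslope (fun u : ℝ => ((Real.exp u : ℝ) : ℂ)) 0 u
  simp only [sub_zero, mul_zero, Complex.ofReal_zero, Complex.exp_zero, Real.exp_zero,
    Complex.ofReal_one] at h1 h2
  rw [← h1, ← h2]
  unfold quot
  have := dslope_exp_ne_zero u
  simp only [Complex.real_smul]
  field_simp

section datum

variable (S : ModularDatum H)

theorem wave_apply_vac_of_compact (t : ℝ) (κ : BCF) (hκ : HasCompactSupport (κ : ℝ → ℂ)) :
    S.D.wave t (S.D.apply κ S.vac) = S.D.apply κ S.vac := by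
  set κ' : BCF := csBCF (fun u => quot t u * κ u) ((continuous_quot t).mul κ.continuous)
    (hκ.mul_left) with hκ'
  have hκ'c : HasCompactSupport (κ' : ℝ → ℂ) := hκ.mul_left
  have h1 := apply_mulEE_vac S κ' hκ'c
  have h2 : mulEE κ' hκ'c - κ' = LineCalculus.character t * κ - κ := by
    ext u
    rw [BoundedContinuousFunction.sub_apply, BoundedContinuousFunction.sub_apply,
      BoundedContinuousFunction.mul_apply, mulEE_apply, hκ', csBCF_apply, character_apply]
    have := quot_mul t u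
    linear_combination κ u * this
  have h3 : S.D.apply (LineCalculus.character t * κ - κ) S.vac = 0 := by
    rw [← h2, apply_sub', h1, sub_self]
  rw [apply_sub', sub_eq_zero] at h3
  rw [LineCalculus.wave, apply_mul_apply]
  exact h3

theorem wave_vac (t : ℝ) : S.D.wave t S.vac = S.vac := by
  refine eq_of_forall_dist_le fun ε hε => ?_
  obtain ⟨κ, hκ, hκx⟩ := S.D.window S.vac (ε / 2) (by positivity)
  have h := wave_apply_vac_of_compact S t κ hκ
  rw [dist_eq_norm]
  have e : S.D.wave t S.vac - S.vac =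
      S.D.wave t (S.vac - S.D.apply κ S.vac) + (S.D.apply κ S.vac - S.vac) := by
    rw [map_sub, h]; abel
  rw [e]
  calc _ ≤ ‖S.D.wave t (S.vac - S.D.apply κ S.vac)‖ + ‖S.D.apply κ S.vac - S.vac‖ := norm_add_le _ _
    _ ≤ ε / 2 + ε / 2 := by
        rw [norm_wave, norm_sub_rev]
        gcongr
    _ = ε := by ring

/-- The approximation: given `h` with `ψ(f) h = h`, `f` compactly supported, there is `a ∈ M` with
`a ξ` close to `h` and `a⋆ ξ` close to `J ψ(f e^{u/2}) h`. -/
theorem exists_approx (h : H) (f : BCF) (hf : HasCompactSupport (f : ℝ → ℂ))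
    (hfh : S.D.apply f h = h) (ε : ℝ) (hε : 0 < ε) :
    ∃ a : H →L[ℂ] H, a ∈ S.M ∧ ‖a S.vac - h‖ < ε ∧
      ‖star a S.vac‖ < ε + ‖S.D.apply (mulE f hf) h‖ := by
  have h1 := halfExp_apply S f hf h
  rw [hfh] at h1
  have h2 := mem_closure_of_halfExp S h1
  obtain ⟨p, ⟨a, rfl⟩, hp⟩ := Metric.mem_closure_iff.1 h2 ε hε
  rw [Prod.dist_eq, max_lt_iff] at hp
  refine ⟨a, a.2, ?_, ?_⟩
  · rw [← dist_eq_norm, dist_comm]
    exact hp.1
  · have h3 : ‖star (a : H →L[ℂ] H) S.vac - S.J (S.D.apply (mulE f hf) h)‖ < ε := by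
      rw [← dist_eq_norm, dist_comm]
      exact hp.2
    have h4 : ‖S.J (S.D.apply (mulE f hf) h)‖ = ‖S.D.apply (mulE f hf) h‖ :=
      LinearIsometryEquiv.norm_map _ _
    calc ‖star (a : H →L[ℂ] H) S.vac‖
        = ‖(star (a : H →L[ℂ] H) S.vac - S.J (S.D.apply (mulE f hf) h))
            + S.J (S.D.apply (mulE f hf) h)‖ := by rw [sub_add_cancel]
      _ ≤ ‖star (a : H →L[ℂ] H) S.vac - S.J (S.D.apply (mulE f hf) h)‖
            + ‖S.J (S.D.apply (mulE f hf) h)‖ := norm_add_le _ _
      _ < ε + ‖S.D.apply (mulE f hf) h‖ := by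
          rw [h4]
          gcongr

end datum

end Crest.Agent.S0112Lib
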